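import Vale.Agent.P032.H158.Rel

/-!
# P032: steps with the cover of the rays, and the label theorem

`CovSt s` : every ray `j` is strictly inside a window of the state `s`.  `StepC` : the step relation
of `Rel` together with the cover before and after and the static steps `s s`, `s' s'`.
`false_of_label` : a label which is invariant under every step that occurs and changes under the
turn is impossible.
-/

open Set Filter Topology Metric

noncomputable section

namespace Vale.Agent.P032.H158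

open Vale.Agent.P032.Six Vale.Agent.P032.Sweep Vale.Agent.P032.S5.H767 Vale.Agent.P032.S5.H122
  Vale.Agent.P032.H429 Vale.Agent.P032.H187

/-- the ray `j` (the border between the sectors `j - 1` and `j`) is inside the window -/
def onw (w : ZMod 6 × ℕ) (j : ZMod 6) : Prop := (j - w.1 - 1).val + 1 ≤ w.2

instance (w : ZMod 6 × ℕ) (j : ZMod 6) : Decidable (onw w j) := by
  unfold onw; infer_instance

/-- every ray is inside a window -/
def CovSt (s : St) : Prop := ∀ j : Fin 6, ∃ i, onw (s.2 i) (j.val : ZMod 6)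

instance (s : St) : Decidable (CovSt s) := by unfold CovSt; infer_instance

section

variable {U : Fin 6 → Set ℂ} {T : ℂ → Set (Fin 6)} {z : ℂ} {L R : Fin 6 → ℝ}

/-- the meaning of `onw` at a time whose rays carry no window end -/
theorem onw_iff (w : WinData T z L R) {t : ℝ} (ht : t ∉ WinData.M L R) {i : Fin 6} (j : ℤ) :
    onw (wn L R t i) (j : ZMod 6) ↔
      ∃ n : ℤ, L i + 6 * n ≤ t + 3 / 2 + j ∧ t + 3 / 2 + j ≤ R i + 6 * n := by
  have hLR := w.le i
  have h0 : sc t (L i) ≤ sc t (R i) := Int.floor_le_floor (by linarith)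
  have key : ∀ n : ℤ, (L i + 6 * n ≤ t + 3 / 2 + j ∧ t + 3 / 2 + j ≤ R i + 6 * n) ↔
      (sc t (L i) + 6 * n < j ∧ j ≤ sc t (R i) + 6 * n) := by
    intro n
    have h1 : sc t (L i) + 6 * n < j ↔ L i + 6 * n ≤ t + 3 / 2 + j := by
      rw [← sc_int, sc_lt]
      constructor
      · exact fun h => h.le
      · intro h
        refine lt_of_le_of_ne h fun he => ht ⟨i, j - 6 * n, Or.inl ?_⟩
        push_cast
        linarith
    have h2 : j ≤ sc t (R i) + 6 * n ↔ t + 3 / 2 + j ≤ R i + 6 * n := by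
      rw [← sc_int, le_sc]
    rw [h1, h2]
  have e0 : ∀ n : ℤ, ((j : ZMod 6) - (sc t (L i) : ZMod 6) - 1) =
      (((j - (sc t (L i) + 6 * n) - 1 : ℤ)) : ZMod 6) := by
    intro n
    push_cast
    have : (6 : ZMod 6) = 0 := by decide
    rw [this]
    ring
  have hl := w.len t i
  have hlen : ((wn L R t i).2 : ℤ) = sc t (R i) - sc t (L i) := by
    show (((sc t (R i) - sc t (L i)).toNat : ℕ) : ℤ) = _
    rw [Int.toNat_of_nonneg (by omega)]
  constructor
  · intro h
    unfold onw at h
    obtain ⟨m, hm0, hm6⟩ : ∃ m : ℤ, 0 ≤ j - (sc t (L i) + 6 * m) - 1 ∧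
        j - (sc t (L i) + 6 * m) - 1 < 6 := by
      refine ⟨(j - sc t (L i) - 1) / 6, ?_, ?_⟩
      · have h1 := Int.emod_nonneg (j - sc t (L i) - 1) (show (6 : ℤ) ≠ 0 by norm_num)
        have h2 := Int.emod_add_mul_ediv (j - sc t (L i) - 1) 6
        linarith
      · have h1 := Int.emod_lt_of_pos (j - sc t (L i) - 1) (show (0 : ℤ) < 6 by norm_num)
        have h2 := Int.emod_add_mul_ediv (j - sc t (L i) - 1) 6
        linarith
    refine ⟨m, (key m).2 ⟨by linarith, ?_⟩⟩
    have e1 : ((j : ZMod 6) - (wn L R t i).1 - 1) =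
      (((j - (sc t (L i) + 6 * m) - 1 : ℤ)) : ZMod 6) := e0 m
    rw [e1, zval_of_int _ (by linarith) (by linarith)] at h
    have h' : ((j - (sc t (L i) + 6 * m) - 1).toNat : ℤ) + 1 ≤ ((wn L R t i).2 : ℤ) := by
      exact_mod_cast h
    rw [Int.toNat_of_nonneg (by linarith), hlen] at h'
    linarith
  · rintro ⟨n, hn⟩
    obtain ⟨h1, h2⟩ := (key n).1 hn
    unfold onw
    have hl' : ((wn L R t i).2 : ℤ) ≤ 3 := by exact_mod_cast hl
    rw [hlen] at hl'
    have e1 : ((j : ZMod 6) - (wn L R t i).1 - 1) =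
      (((j - (sc t (L i) + 6 * n) - 1 : ℤ)) : ZMod 6) := e0 n
    rw [e1, zval_of_int _ (by linarith) (by linarith)]
    have h' : ((j - (sc t (L i) + 6 * n) - 1).toNat : ℤ) + 1 ≤ ((wn L R t i).2 : ℤ) := by
      rw [Int.toNat_of_nonneg (by linarith), hlen]
      linarith
    exact_mod_cast h'

/-- at a generic time every ray is inside a window -/
theorem cov_st (w : WinData T z L R) {t : ℝ} (ht : t ∉ WinData.M L R) :
    CovSt (WinData.st T z L R t) := by
  intro j
  obtain ⟨i, n, h1, h2⟩ := w.cover (t + 3 / 2 + ((j.val : ℤ) : ℝ))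
  refine ⟨i, ?_⟩
  have h3 := (onw_iff w ht (i := i) (j.val : ℤ)).2 ⟨n, h1, h2⟩
  have e : (((j.val : ℤ)) : ZMod 6) = (j.val : ZMod 6) := by push_cast; rfl
  rw [e] at h3
  exact h3

theorem LS_cov (w : WinData T z L R) {u : ℝ} {s : St} (hs : s ∈ LS T z L R u) : CovSt s := by
  have hs' : ∃ᶠ v in 𝓝[<] u, v ∈ WinData.G T z L R ∧ WinData.st T z L R v = s := hs
  obtain ⟨v, hv, rfl⟩ := hs'.exists
  exact cov_st w hv.2

theorem RS_cov (w : WinData T z L R) {u : ℝ} {s : St} (hs : s ∈ RS T z L R u) : CovSt s := by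
  have hs' : ∃ᶠ v in 𝓝[>] u, v ∈ WinData.G T z L R ∧ WinData.st T z L R v = s := hs
  obtain ⟨v, hv, rfl⟩ := hs'.exists
  exact cov_st w hv.2

/-- the state of a generic time is a limit state from both sides at this time -/
theorem st_LR (h : Irr U T) {v : ℝ} (hv : v ∈ WinData.G T z L R) :
    WinData.st T z L R v ∈ LS T z L R v ∧ WinData.st T z L R v ∈ RS T z L R v := by
  have hd := WinData.G_dense h z L R
  have hc := WinData.st_const hv
  constructor
  · show ∃ᶠ t in 𝓝[<] v, t ∈ WinData.G T z L R ∧ _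
    rw [frequently_iff]
    intro S hS
    obtain ⟨a, ha, hS'⟩ := mem_nhdsLT_iff_exists_Ioo_subset.1
      (inter_mem hS (mem_nhdsWithin_of_mem_nhds hc))
    obtain ⟨t, h1, h2⟩ := hd.exists_mem_open (isOpen_Ioo (a := a) (b := v)) (nonempty_Ioo.2 ha)
    exact ⟨t, (hS' h2).1, h1, (hS' h2).2⟩
  · show ∃ᶠ t in 𝓝[>] v, t ∈ WinData.G T z L R ∧ _
    rw [frequently_iff]
    intro S hS
    obtain ⟨a, ha, hS'⟩ := mem_nhdsGT_iff_exists_Ioo_subset.1
      (inter_mem hS (mem_nhdsWithin_of_mem_nhds hc))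
    obtain ⟨t, h1, h2⟩ := hd.exists_mem_open (isOpen_Ioo (a := v) (b := a)) (nonempty_Ioo.2 ha)
    exact ⟨t, (hS' h2).1, h1, (hS' h2).2⟩

/-- the static rules at a generic time -/
theorem step_self (h : Irr U T) (w : WinData T z L R) {Sd : Fin 6 → Prop}
    (hD : ∀ i, Sd i → L i ∈ closure (Dr U z i) ∧ R i ∈ closure (Dr U z i)) {v : ℝ}
    (hv : v ∈ WinData.G T z L R) :
    Step Sd (WinData.st T z L R v) (WinData.st T z L R v) :=
  (step_all h w hD (st_LR h hv).1 (st_LR h hv).2).1

end

/-- **All the rules at a time**, with the cover of the rays and the static steps -/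
structure StepC (Sd : Fin 6 → Prop) (s s' : St) : Prop extends Step Sd s s' where
  cov : CovSt s
  cov' : CovSt s'
  self : Step Sd s s
  self' : Step Sd s' s'

section

variable {U : Fin 6 → Set ℂ} {T : ℂ → Set (Fin 6)} {z : ℂ} {L R : Fin 6 → ℝ}

theorem stepC_all (h : Irr U T) (w : WinData T z L R) {Sd : Fin 6 → Prop}
    (hD : ∀ i, Sd i → L i ∈ closure (Dr U z i) ∧ R i ∈ closure (Dr U z i)) {u : ℝ} {s s' : St}
    (hs : s ∈ LS T z L R u) (hs' : s' ∈ RS T z L R u) :
    StepC Sd s s' ∧ ((s'.2 = s.2) ↔ u ∉ WinData.M L R) := by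
  obtain ⟨h1, h2⟩ := step_all h w hD hs hs'
  have f1 : ∃ᶠ v in 𝓝[<] u, v ∈ WinData.G T z L R ∧ WinData.st T z L R v = s := hs
  have f2 : ∃ᶠ v in 𝓝[>] u, v ∈ WinData.G T z L R ∧ WinData.st T z L R v = s' := hs'
  refine ⟨⟨h1, LS_cov w hs, RS_cov w hs', ?_, ?_⟩, h2⟩
  · obtain ⟨v, hv, rfl⟩ := f1.exists
    exact step_self h w hD hv
  · obtain ⟨v, hv, rfl⟩ := f2.exists
    exact step_self h w hD hv

/-- **The potential theorem** with the cover of the rays. -/
theorem false_of_potC (h : Irr U T) (w : WinData T z L R) {Sd : Fin 6 → Prop}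
    (hD : ∀ i, Sd i → L i ∈ closure (Dr U z i) ∧ R i ∈ closure (Dr U z i)) {φ : St → ℕ}
    (hsh : ∀ s, Step Sd s s → CovSt s → φ (H429.shift s) = φ s)
    (step : ∀ s s', StepC Sd s s' → φ s' ≤ φ s ∧ (s'.2 ≠ s.2 → φ s' < φ s)) : False := by
  refine WinData.false_pot h z L R (φ := φ)
    (fun t ht => hsh _ (step_self h w hD ht) (cov_st w ht.2)) fun u s hs s' hs' => ?_
  obtain ⟨h1, h2⟩ := stepC_all h w hD hs hs'
  obtain ⟨h3, h4⟩ := step s s' h1
  refine ⟨h3, fun hu => h4 fun he => ?_⟩
  exact (h2.1 he) hu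

/-- **Transport along the time**: a property which is kept by every step is kept from a generic
time to a later one -/
theorem reach (h : Irr U T) {P : St → Prop} {a b : ℝ} (hab : a < b)
    (ha : a ∈ WinData.G T z L R) (hb : b ∈ WinData.G T z L R)
    (step : ∀ u, ∀ s ∈ LS T z L R u, ∀ s' ∈ RS T z L R u, P s → P s')
    (h0 : P (WinData.st T z L R a)) : P (WinData.st T z L R b) := by
  have key := H987.transport (ι := Unit) (M := fun _ => (∅ : Set ℝ)) (a := a) (b := b + 1)
    (fun _ => by simp) (WinData.G_dense h z L R) (st := WinData.st T z L R)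
    (fun u hu _ => (WinData.st_const hu).mono fun _ hv _ => hv)
    (I := fun _ s => P s) ?_ ?_ b ⟨hab, by linarith⟩ hb
  · exact key
  · have h1 : ∀ᶠ v in 𝓝[>] a, WinData.st T z L R v = WinData.st T z L R a :=
      mem_nhdsWithin_of_mem_nhds (WinData.st_const ha)
    filter_upwards [h1] with v hv _
    rw [hv]
    exact h0
  · intro u hu
    filter_upwards [WinData.ev_LS T z L R u] with v hv hvG
    filter_upwards [WinData.ev_RS T z L R u] with v' hv' hvG' n hI
    exact step u _ (hv hvG) _ (hv' hvG') hI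

/-- **A turn is a closed word of steps**: for every relation `E` which contains the steps that
occur, some valid state reaches its shift -/
theorem exists_turn (h : Irr U T) (w : WinData T z L R) {Sd : Fin 6 → Prop}
    (hD : ∀ i, Sd i → L i ∈ closure (Dr U z i) ∧ R i ∈ closure (Dr U z i)) {E : St → St → Prop}
    (step : ∀ u, ∀ s ∈ LS T z L R u, ∀ s' ∈ RS T z L R u, StepC Sd s s' → E s s') :
    ∃ s, Step Sd s s ∧ CovSt s ∧ Relation.ReflTransGen E s (H429.shift s) := by
  obtain ⟨a, ha⟩ := (WinData.G_dense h z L R).nonempty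
  have h1 := reach h (P := fun s => Relation.ReflTransGen E (WinData.st T z L R a) s)
    (show a < a + 1 by linarith) ha (WinData.G_turn ha)
    (fun u s hs s' hs' hp => hp.tail (step u s hs s' hs' (stepC_all h w hD hs hs').1))
    Relation.ReflTransGen.refl
  rw [WinData.st_turn] at h1
  exact ⟨_, step_self h w hD ha, cov_st w ha.2, h1⟩

/-- **The label theorem**: a label which is invariant under the steps that occur and changes under
the turn is impossible. -/
theorem false_of_label (h : Irr U T) (w : WinData T z L R) {Sd : Fin 6 → Prop}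
    (hD : ∀ i, Sd i → L i ∈ closure (Dr U z i) ∧ R i ∈ closure (Dr U z i)) {α : Type*}
    {F : St → α} (hsh : ∀ s, Step Sd s s → CovSt s → F (H429.shift s) ≠ F s)
    (step : ∀ u, ∀ s ∈ LS T z L R u, ∀ s' ∈ RS T z L R u, StepC Sd s s' → F s' = F s) : False := by
  obtain ⟨a, ha⟩ := (WinData.G_dense h z L R).nonempty
  have h1 := reach h (P := fun s => F s = F (WinData.st T z L R a))
    (show a < a + 1 by linarith) ha (WinData.G_turn ha)
    (fun u s hs s' hs' hp => (step u s hs s' hs' (stepC_all h w hD hs hs').1).trans hp) rfl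
  rw [WinData.st_turn] at h1
  exact hsh _ (step_self h w hD ha) (cov_st w ha.2) h1

end

end Vale.Agent.P032.H158
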