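import Vale.Agent.P032.H989.Germ
import Vale.Agent.P032.H429.Half
import Vale.Agent.P032.H187.Product

/-!
# P032: side aware germ rules

`OutN U z y i` (`InnN U z y i`) : the colour `i` occurs arbitrarily near `y` outside (inside) the
disc about `z`.  Then `i` has no ray (and no continuum) at `z` towards `y` (away from `y`).

`germ_tau` : the germ rule gives a colour in the direction `d` at `p`, outside or inside all the
discs about points of `S(p)` according to the sign of the inner product.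

`xc_out`, `xc_inn` (554's rule XC, closed form): `y = z + cis t`, `P` is carried by `S(z)` on arcs
before `t + 60`, `Q` on arcs after `t - 60` (independent times): some colour of `T y` not in `P`, `Q`
occurs near `y` outside the disc about `z`; the same inside with after / before.
-/

open Set Filter Topology Metric

noncomputable section

namespace Vale.Agent.P032.H158

open Vale.Agent.P032.Six Vale.Agent.P032.H187 Vale.Agent.P032.H989 Vale.Agent.P032.S5.H767

variable {k : ℕ} {U : Fin k → Set ℂ} {T : ℂ → Set (Fin k)}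

/-! ### colours near a point on one side of a circle -/

/-- the colour `i` occurs arbitrarily near `y` outside the disc about `z` -/
def OutN (U : Fin k → Set ℂ) (z y : ℂ) (i : Fin k) : Prop :=
  ∃ᶠ w in 𝓝 y, w ∈ U i ∧ 1 < dist w z

/-- the colour `i` occurs arbitrarily near `y` inside the disc about `z` -/
def InnN (U : Fin k → Set ℂ) (z y : ℂ) (i : Fin k) : Prop :=
  ∃ᶠ w in 𝓝 y, w ∈ U i ∧ dist w z < 1

/-- a colour of the palettes near `y` in an open region occurs there as an open set -/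
theorem freq_U (h : Irr U T) {y : ℂ} {i : Fin k} {R : Set ℂ} (hR : IsOpen R)
    (hf : ∃ᶠ w in 𝓝 y, i ∈ T w ∧ w ∈ R) : ∃ᶠ w in 𝓝 y, w ∈ U i ∧ w ∈ R := by
  rw [frequently_iff]
  intro N hN
  obtain ⟨N', hN'N, hN'o, hN'⟩ := _root_.mem_nhds_iff.1 hN
  obtain ⟨w, ⟨h1, h2⟩, h3⟩ := (hf.and_eventually (hN'o.mem_nhds hN')).exists
  obtain ⟨v, h4, h5⟩ := ((h.pure w i h1).and_eventually ((hR.inter hN'o).mem_nhds ⟨h2, h3⟩)).exists
  exact ⟨v, hN'N h5.2, h.mem_of_single (by rw [h4]), h5.1⟩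

theorem outN_of (h : Irr U T) {z y : ℂ} {i : Fin k} (hf : ∃ᶠ w in 𝓝 y, i ∈ T w ∧ 1 < dist w z) :
    OutN U z y i :=
  freq_U h (R := {w | 1 < dist w z}) (isOpen_lt continuous_const (continuous_id.dist
    continuous_const)) hf

theorem innN_of (h : Irr U T) {z y : ℂ} {i : Fin k} (hf : ∃ᶠ w in 𝓝 y, i ∈ T w ∧ dist w z < 1) :
    InnN U z y i :=
  freq_U h (R := {w | dist w z < 1}) (isOpen_lt (continuous_id.dist
    continuous_const) continuous_const) hf

/-- **no ray towards `y`** of a colour outside the disc near `y` -/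
theorem OutN.ray (h : Mx U) {z y m : ℂ} {i : Fin k} (ho : OutN U z y i) (hy : dist y z = 1)
    (hm : Ray (U i) z m) : ip m (y - z) ≤ 0 := by
  by_contra hcon
  push Not at hcon
  obtain ⟨w, ⟨h1, h2⟩, h3⟩ := (Filter.Frequently.and_eventually ho (h.far hm hy hcon)).exists
  exact h3 h2 (subset_closure h1)

/-- **no ray away from `y`** of a colour inside the disc near `y` -/
theorem InnN.ray (h : Mx U) {z y m : ℂ} {i : Fin k} (ho : InnN U z y i) (hy : dist y z = 1)
    (hm : Ray (U i) z m) : 0 ≤ ip m (y - z) := by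
  by_contra hcon
  push Not at hcon
  obtain ⟨w, ⟨h1, h2⟩, h3⟩ := (Filter.Frequently.and_eventually ho (h.near hm hy hcon)).exists
  exact h3 h2 (subset_closure h1)

/-- a continuum of `F_i` at `z` does not enter the disc about `y` -/
theorem OutN.cont (h : Mx U) {z y : ℂ} {i : Fin k} (ho : OutN U z y i) {C : Set ℂ}
    (hC : IsPreconnected C) (hz : z ∈ C) (hCi : ∀ x ∈ C, i ∈ Pal U x) :
    ∀ x ∈ C, 1 ≤ dist x y := by
  intro x hx
  by_contra hcon
  push Not at hcon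
  have e1 : ∀ᶠ w in 𝓝 y, dist x w < 1 :=
    (continuous_const.dist continuous_id).continuousAt.eventually (Iio_mem_nhds hcon)
  obtain ⟨w, ⟨h1, h2⟩, h3⟩ := (Filter.Frequently.and_eventually ho e1).exists
  have h4 := hC.intermediate_value hx hz (f := fun q => dist q w)
    (continuous_id.dist continuous_const).continuousOn
  obtain ⟨q, hq, hq1⟩ := h4 (show (1 : ℝ) ∈ Icc (dist x w) (dist z w) from
    ⟨h3.le, by rw [dist_comm z w]; exact h2.le⟩)
  exact h.notMem (hCi q hq) (by rw [dist_comm]; exact hq1) h1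

/-- a continuum of `F_i` at `z` does not leave the disc about `y` -/
theorem InnN.cont (h : Mx U) {z y : ℂ} {i : Fin k} (ho : InnN U z y i) {C : Set ℂ}
    (hC : IsPreconnected C) (hz : z ∈ C) (hCi : ∀ x ∈ C, i ∈ Pal U x) :
    ∀ x ∈ C, dist x y ≤ 1 := by
  intro x hx
  by_contra hcon
  push Not at hcon
  have e1 : ∀ᶠ w in 𝓝 y, 1 < dist x w :=
    (continuous_const.dist continuous_id).continuousAt.eventually (Ioi_mem_nhds hcon)
  obtain ⟨w, ⟨h1, h2⟩, h3⟩ := (Filter.Frequently.and_eventually ho e1).exists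
  have h4 := hC.intermediate_value hz hx (f := fun q => dist q w)
    (continuous_id.dist continuous_const).continuousOn
  obtain ⟨q, hq, hq1⟩ := h4 (show (1 : ℝ) ∈ Icc (dist z w) (dist x w) from
    ⟨by rw [dist_comm z w]; exact h2.le, h3.le⟩)
  exact h.notMem (hCi q hq) (by rw [dist_comm]; exact hq1) h1

/-- the ray of a one-sided colour is on its side -/
theorem side_ray {z u m : ℂ} {i : Fin k} (hs : Side429 U z u i) (hm0 : m ≠ 0)
    (hm : Ray (U i) z m) : 0 < ip m u := by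
  obtain ⟨ε, hε, h1⟩ := hs
  have h2 : Tendsto (fun r : ℝ => z + (r : ℂ) * m) (𝓝[>] (0 : ℝ)) (𝓝 z) := by
    have h3 : Continuous fun r : ℝ => z + (r : ℂ) * m := by fun_prop
    have h4 := h3.tendsto 0
    simp only [Complex.ofReal_zero, zero_mul, add_zero] at h4
    exact h4.mono_left nhdsWithin_le_nhds
  obtain ⟨r, ⟨h3, h4⟩, h5⟩ := ((h2.eventually h1).and
    (Filter.Eventually.and hm self_mem_nhdsWithin)).exists.imp fun r hr => (⟨⟨hr.1, hr.2.1⟩, hr.2.2⟩ :
      (_ ∧ _) ∧ _)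
  have h5 : (0 : ℝ) < r := h5
  have h6 := h3 (subset_closure h4)
  have e1 : z + (r : ℂ) * m - z = (r : ℂ) * m := by ring
  rw [e1, norm_mul, Complex.norm_real, Real.norm_eq_abs, abs_of_pos h5] at h6
  have e2 : ip ((r : ℂ) * m) u = r * ip m u := by
    unfold ip
    simp only [Complex.mul_re, Complex.mul_im, Complex.ofReal_re, Complex.ofReal_im]
    ring
  rw [e2] at h6
  have h7 : 0 < ε * (r * ‖m‖) := by have := norm_pos_iff.2 hm0; positivity
  exact pos_of_mul_pos_right (lt_of_lt_of_le h7 h6) h5.le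

/-- a colour strictly on the side of `y` at `z` (with a ray) does not occur outside near `y` -/
theorem OutN.not_side (h : Mx U) {z y m : ℂ} {i : Fin k} (ho : OutN U z y i) (hy : dist y z = 1)
    (hm0 : m ≠ 0) (hm : Ray (U i) z m) (hs : Side429 U z (y - z) i) : False :=
  absurd (side_ray hs hm0 hm) (not_lt.2 (ho.ray h hy hm))

/-- a colour strictly on the other side at `z` (with a ray) does not occur inside near `y` -/
theorem InnN.not_side (h : Mx U) {z y m : ℂ} {i : Fin k} (ho : InnN U z y i) (hy : dist y z = 1)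
    (hm0 : m ≠ 0) (hm : Ray (U i) z m) (hs : Side429 U z (-(y - z)) i) : False := by
  have h1 := side_ray hs hm0 hm
  have h2 := ho.ray h hy hm
  have e : ip m (-(y - z)) = -ip m (y - z) := by unfold ip; simp; ring
  rw [e] at h1
  linarith

/-- a colour of `y` which is off `S(z)` near `y` occurs outside or inside -/
theorem out_or_inn (h : Mx U) {z y : ℂ} {i : Fin k} (hi : i ∈ Pal U y) :
    OutN U z y i ∨ InnN U z y i := by
  by_contra hcon
  push Not at hcon
  obtain ⟨h1, h2⟩ := hcon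
  unfold OutN at h1
  unfold InnN at h2
  rw [Filter.not_frequently] at h1 h2
  obtain ⟨g, ⟨hgU, hg⟩, hgz⟩ := exists_off (h.isOpen i) (z := z) hi (h1.and h2)
  rcases lt_or_gt_of_ne hgz with h3 | h3
  · exact hg.2 ⟨hgU, h3⟩
  · exact hg.1 ⟨hgU, h3⟩

/-! ### sectors -/

theorem nap_dist (y d v : ℂ) (r s : ℝ) (hy : dist y v = 1) :
    dist (y + r * (d * cis s)) v ^ 2 = 1 + 2 * (r * ip (d * cis s) (y - v)) +
      r ^ 2 * ip (d * cis s) (d * cis s) := by
  have h0 := (dist_eq_one_iff _ _).1 hy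
  rw [sq_dist]
  unfold ip
  simp only [Complex.add_re, Complex.add_im, Complex.mul_re, Complex.mul_im, Complex.ofReal_re,
    Complex.ofReal_im, zero_mul, sub_zero, add_zero, Complex.sub_re, Complex.sub_im]
  nlinarith [h0]

/-- the sector at `y` in a direction away from `v` is outside the disc about `v` -/
theorem nap_far {y d v : ℂ} (hy : dist y v = 1) (hd : 0 < ip d (y - v)) :
    ∀ᶠ w in nap y d, 1 < dist w v := by
  have h1 : ∀ᶠ s : ℝ in 𝓝 0, 0 < ip (d * cis s) (y - v) := by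
    have h2 := (ip_mul_cis429 d (y - v)).tendsto 0
    have e : cis 0 = 1 := by simp [cis]
    rw [e, mul_one] at h2
    exact h2.eventually (Ioi_mem_nhds hd)
  obtain ⟨δ, hδ, h3⟩ := Metric.eventually_nhds_iff.1 h1
  refine nap_iff.2 ⟨δ, hδ, fun s r hs hr0 _ => ?_⟩
  have h4 := h3 (y := s) (by rwa [Real.dist_eq, sub_zero])
  have h5 := nap_dist y d v r s hy
  have h6 : 0 ≤ ip (d * cis s) (d * cis s) := by
    unfold ip
    nlinarith [sq_nonneg (d * cis s).re, sq_nonneg (d * cis s).im]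
  have h7 := mul_pos hr0 h4
  have h8 := mul_nonneg (sq_nonneg r) h6
  nlinarith [dist_nonneg (x := y + r * (d * cis s)) (y := v)]

/-- the sector at `y` in a direction towards `v` is inside the disc about `v` -/
theorem nap_near {y d v : ℂ} (hy : dist y v = 1) (hd : ip d (y - v) < 0) :
    ∀ᶠ w in nap y d, dist w v < 1 := by
  set η := -ip d (y - v) / 2 with hη
  have hη0 : 0 < η := by rw [hη]; linarith
  have h1 : ∀ᶠ s : ℝ in 𝓝 0, ip (d * cis s) (y - v) < -η := by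
    have h2 := (ip_mul_cis429 d (y - v)).tendsto 0
    have e : cis 0 = 1 := by simp [cis]
    rw [e, mul_one] at h2
    exact h2.eventually (Iio_mem_nhds (by rw [hη]; linarith))
  obtain ⟨δ, hδ, h3⟩ := Metric.eventually_nhds_iff.1 h1
  have hq : ∀ s : ℝ, ip (d * cis s) (d * cis s) = ip d d := by
    intro s
    unfold ip
    simp only [Complex.mul_re, Complex.mul_im, cis_re, cis_im]
    have := Real.sin_sq_add_cos_sq s
    linear_combination (d.re ^ 2 + d.im ^ 2) * this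
  have hdd : 0 ≤ ip d d := by
    unfold ip
    nlinarith [sq_nonneg d.re, sq_nonneg d.im]
  refine nap_iff.2 ⟨min δ (η / (ip d d + 1)), by positivity, fun s r hs hr0 hr => ?_⟩
  have h4 := h3 (y := s) (by
    rw [Real.dist_eq, sub_zero]; exact lt_of_lt_of_le hs (min_le_left _ _))
  have h5 := nap_dist y d v r s hy
  rw [hq] at h5
  have h6 : r * (ip d d + 1) < η := by
    have := lt_of_lt_of_le hr (min_le_right _ _)
    rwa [lt_div_iff₀ (by linarith)] at this
  have h7 : r * (r * (ip d d + 1)) < r * η := mul_lt_mul_of_pos_left h6 hr0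
  have h8 : r * ip (d * cis s) (y - v) < r * -η := mul_lt_mul_of_pos_left h4 hr0
  have h9 : dist (y + r * (d * cis s)) v ^ 2 < 1 := by
    rw [h5]
    nlinarith [mul_pos hr0 hr0]
  by_contra hcon
  push Not at hcon
  nlinarith

/-- a colour in a direction away from `v` -/
theorem outN_of_tau (h : Irr U T) {y d v : ℂ} {i : Fin k} (hi : i ∈ tau T y d)
    (hy : dist y v = 1) (hd : 0 < ip d (y - v)) : OutN U v y i := by
  have h1 : ∃ᶠ w in nap y d, i ∈ T w := hi
  exact outN_of h ((h1.and_eventually (nap_far hy hd)).filter_mono (nap_le y d))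

theorem innN_of_tau (h : Irr U T) {y d v : ℂ} {i : Fin k} (hi : i ∈ tau T y d)
    (hy : dist y v = 1) (hd : ip d (y - v) < 0) : InnN U v y i := by
  have h1 : ∃ᶠ w in nap y d, i ∈ T w := hi
  exact innN_of h ((h1.and_eventually (nap_near hy hd)).filter_mono (nap_le y d))

/-! ### the germ rule with sides -/

/-- the germ rule in a sector -/
theorem germ_nap (h : Mx U) {c p d : ℂ} {θ σ : ℝ} {P : Set (Fin k)}
    (hw : dist (c + cis θ) p = 1) (hP : Br U c θ σ P)
    (hd : 0 < σ * cr (cis θ) (c + cis θ - p) * inn (c + cis θ - p) d) :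
    ∀ᶠ w in nap p d, ∀ i ∈ P, i ∉ Pal U w := by
  have h1 := (nap_le p d) (germ_ev h hw hP)
  have e1 : inn (c + cis θ - p) d = -ip d (p - (c + cis θ)) := by
    unfold inn ip
    simp only [Complex.sub_re, Complex.sub_im, Complex.add_re, Complex.add_im]
    ring
  rcases lt_trichotomy (σ * cr (cis θ) (c + cis θ - p)) 0 with h3 | h3 | h3
  · have h4 : inn (c + cis θ - p) d < 0 := by
      by_contra hcon
      push Not at hcon
      exact absurd hd (not_lt.2 (mul_nonpos_of_nonpos_of_nonneg h3.le hcon))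
    rw [e1] at h4
    filter_upwards [h1, nap_far (v := c + cis θ) (by rw [dist_comm]; exact hw)
      (by linarith : 0 < ip d (p - (c + cis θ)))] with w h5 h6
    exact h5 (Or.inr ⟨by rw [dist_comm]; exact h6, h3⟩)
  · rw [h3, zero_mul] at hd
    exact absurd hd (lt_irrefl _)
  · have h4 : 0 < inn (c + cis θ - p) d := pos_of_mul_pos_right hd h3.le
    rw [e1] at h4
    filter_upwards [h1, nap_near (v := c + cis θ) (by rw [dist_comm]; exact hw)
      (by linarith : ip d (p - (c + cis θ)) < 0)] with w h5 h6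
    exact h5 (Or.inl ⟨by rw [dist_comm]; exact h6, h3⟩)

/-- **Germ rule with sides.** -/
theorem germ_tau (h : Irr U T) {ι : Type*} [Finite ι] {p d : ℂ} (c : ι → ℂ) (θ σ : ι → ℝ)
    (P : ι → Set (Fin k)) (hw : ∀ j, dist (c j + cis (θ j)) p = 1)
    (hP : ∀ j, Br U (c j) (θ j) (σ j) (P j))
    (hd : ∀ j, 0 < σ j * cr (cis (θ j)) (c j + cis (θ j) - p) * inn (c j + cis (θ j) - p) d) :
    ∃ i ∈ tau T p d, (∀ j, i ∉ P j) ∧ ∀ v, dist p v = 1 →
      (0 < ip d (p - v) → OutN U v p i) ∧ (ip d (p - v) < 0 → InnN U v p i) := by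
  have h1 : ∀ᶠ w in nap p d, ∀ j, ∀ i ∈ P j, i ∉ Pal U w :=
    eventually_all.2 fun j => germ_nap h.mx (hw j) (hP j) (hd j)
  obtain ⟨w, hw1, hw2⟩ := (h1.and (tau_ev T p d)).exists
  obtain ⟨i, hi⟩ := h.ne w
  exact ⟨i, hw2 hi, fun j hj => hw1 j i hj (h.sub _ hi), fun v hv =>
    ⟨outN_of_tau h (hw2 hi) hv, innN_of_tau h (hw2 hi) hv⟩⟩

/-! ### the closed form at the slots of one circle -/

/-- two carried points of `S(z)`, not antipodal: their rhombus point has none of the colours -/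
theorem pair_free (h : Mx U) {z : ℂ} {α β : ℝ} {P Q : Set (Fin k)} (hP : z + cis α ∈ Cr U z P)
    (hQ : z + cis β ∈ Cr U z Q) (h1 : cis α ≠ cis β) (h2 : cis α + cis β ≠ 0) :
    ∀ i, i ∈ P ∨ i ∈ Q → i ∉ Pal U (z + cis α + cis β) := by
  rintro i (hi | hi)
  · refine Cr_line h hP hi ?_ (fun h3 => h2 ?_) (fun h3 => h1 ?_)
    · rw [dist_eq_norm]
      have e : z + cis α - (z + cis α + cis β) = -cis β := by ring
      rw [e, norm_neg, norm_cis]
    · linear_combination h3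
    · linear_combination -h3
  · refine Cr_line h hQ hi ?_ (fun h3 => h2 ?_) (fun h3 => h1 ?_)
    · rw [dist_eq_norm]
      have e : z + cis β - (z + cis α + cis β) = -cis α := by ring
      rw [e, norm_neg, norm_cis]
    · linear_combination h3
    · linear_combination h3

theorem rhombus_dist (z : ℂ) (α β : ℝ) :
    dist (z + cis α + cis β) z ^ 2 = 2 + 2 * Real.cos (α - β) := by
  rw [sq_dist]
  simp only [Complex.add_re, Complex.add_im, cis_re, cis_im]
  rw [Real.cos_sub]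
  have h1 := Real.sin_sq_add_cos_sq α
  have h2 := Real.sin_sq_add_cos_sq β
  linear_combination h1 + h2

/-! ### directions -/

/-- points with nearly the direction `m` are in the sector -/
theorem nap_near_dir {z m : ℂ} (hm : ‖m‖ = 1) {p : ℂ → Prop} (h : ∀ᶠ x in nap z m, p x) :
    ∃ ε > 0, ∀ b : ℝ, 0 < b → b < ε → ∀ x : ℂ, ‖x - b * m‖ < ε * b → p (z + x) := by
  obtain ⟨δ, hδ, hd⟩ := nap_iff.1 h
  have harg : ∀ᶠ v : ℂ in 𝓝 1, |Complex.arg v| < δ := by
    have h1 := (Complex.continuousAt_arg (x := 1) (Or.inl (by norm_num))).eventually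
      (Metric.ball_mem_nhds (Complex.arg 1) hδ)
    rw [Complex.arg_one] at h1
    filter_upwards [h1] with v hv
    have hv' : dist (Complex.arg v) 0 < δ := hv
    rwa [Real.dist_eq, sub_zero] at hv'
  obtain ⟨ε1, hε1, h1⟩ := Metric.eventually_nhds_iff.1 harg
  refine ⟨min (min ε1 (1 / 2)) (δ / 2), by positivity, fun b hb0 hb x hx => ?_⟩
  set ε := min (min ε1 (1 / 2)) (δ / 2) with hε
  have he1 : ε ≤ ε1 := (min_le_left _ _).trans (min_le_left _ _)
  have he2 : ε ≤ 1 / 2 := (min_le_left _ _).trans (min_le_right _ _)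
  have he3 : ε ≤ δ / 2 := min_le_right _ _
  have hbm : ((b : ℂ) * m) ≠ 0 := by
    refine mul_ne_zero (by exact_mod_cast hb0.ne') fun h2 => ?_
    rw [h2, norm_zero] at hm
    exact zero_ne_one hm
  have hnb : ‖(b : ℂ) * m‖ = b := by
    rw [norm_mul, hm, mul_one, Complex.norm_real, Real.norm_eq_abs, abs_of_pos hb0]
  set v := x / (b * m) with hv
  have hv1 : ‖v - 1‖ < ε := by
    have e : v - 1 = (x - b * m) / (b * m) := by rw [sub_div, div_self hbm]
    rw [e, norm_div, hnb, div_lt_iff₀ hb0]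
    exact hx
  have hv2 : |Complex.arg v| < δ := h1 (by rw [dist_eq_norm]; exact lt_of_lt_of_le hv1 he1)
  have hvn : ‖v‖ < 3 / 2 := by
    have := norm_add_le (v - 1) 1
    rw [sub_add_cancel, norm_one] at this
    linarith
  have hv0 : 0 < ‖v‖ := by
    have := norm_sub_norm_le (1 : ℂ) (1 - v)
    rw [sub_sub_cancel, norm_one, norm_sub_rev] at this
    linarith
  have h3 := hd (Complex.arg v) (b * ‖v‖) hv2 (mul_pos hb0 hv0) (by nlinarith)
  have e : ((b * ‖v‖ : ℝ) : ℂ) * (m * cis (Complex.arg v)) = x := by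
    have h4 : (‖v‖ : ℂ) * cis (Complex.arg v) = v := Complex.norm_mul_exp_arg_mul_I v
    calc ((b * ‖v‖ : ℝ) : ℂ) * (m * cis (Complex.arg v))
        = (b * m) * ((‖v‖ : ℂ) * cis (Complex.arg v)) := by push_cast; ring
      _ = x := by rw [h4, hv, mul_div_cancel₀ _ hbm]
  rwa [e] at h3

theorem norm_cis_sub158 (s t : ℝ) : ‖cis s - cis t‖ ≤ |s - t| := by
  have h := Convex.norm_image_sub_le_of_norm_hasDerivWithin_le (f := cis)
    (f' := fun x => Complex.I * cis x) (C := 1) (s := univ)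
    (fun x _ => (hasDerivAt_cis x).hasDerivWithinAt)
    (fun x _ => by rw [norm_mul, Complex.norm_I, one_mul, norm_cis]) convex_univ
    (mem_univ t) (mem_univ s)
  rwa [one_mul, Real.norm_eq_abs] at h

/-- **Rhombus wedge.** `S(z)` carries `P` on arcs accumulating at `α₀` and `Q` on arcs accumulating at
`β₀` on the side `σ` : near the rhombus point there are points without the colours of `P`, `Q`, in
the direction `σ i e(β₀)`. -/
theorem wedge_gen (h : Mx U) {z : ℂ} {α₀ β₀ σ : ℝ} {P Q : Set (Fin k)} (h1 : cis α₀ ≠ cis β₀)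
    (h2 : cis α₀ + cis β₀ ≠ 0) (hσ : σ = 1 ∨ σ = -1)
    (hP : ∃ᶠ α in 𝓝 α₀, z + cis α ∈ Cr U z P)
    (hQ : ∃ᶠ s in 𝓝[>] (0 : ℝ), z + cis (β₀ + σ * s) ∈ Cr U z Q) :
    ∃ᶠ w in nap (z + cis α₀ + cis β₀) (σ * (Complex.I * cis β₀)),
      ∀ i, i ∈ P ∨ i ∈ Q → i ∉ Pal U w := by
  intro hcon
  have hσ1 : |σ| = 1 := by rcases hσ with rfl | rfl <;> simp
  have hm : ‖(σ : ℂ) * (Complex.I * cis β₀)‖ = 1 := by
    rw [norm_mul, norm_mul, Complex.norm_I, norm_cis, Complex.norm_real, Real.norm_eq_abs, hσ1]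
    norm_num
  obtain ⟨ε, hε, h3⟩ := nap_near_dir hm hcon
  -- the second point
  have hder : HasDerivAt (fun s : ℝ => cis (β₀ + σ * s)) ((σ : ℂ) * (Complex.I * cis β₀)) 0 := by
    have h4 : HasDerivAt (fun s : ℝ => β₀ + σ * s) σ 0 := by
      have := ((hasDerivAt_id (0 : ℝ)).const_mul σ).const_add β₀
      simpa using this
    have h5 := (hasDerivAt_cis (β₀ + σ * 0)).scomp (0 : ℝ) h4
    simp only [mul_zero, add_zero] at h5
    refine h5.congr_deriv ?_
    rw [Complex.real_smul]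
  have h4 : ∀ᶠ s : ℝ in 𝓝[>] 0, ‖cis (β₀ + σ * s) - cis β₀ - s * ((σ : ℂ) * (Complex.I * cis β₀))‖ ≤
      ε / 2 * s := by
    have h5 := (hasDerivAt_iff_isLittleO.1 hder).def (show 0 < ε / 2 by positivity)
    filter_upwards [h5.filter_mono nhdsWithin_le_nhds, self_mem_nhdsWithin] with s hs hs0
    have hs0 : (0 : ℝ) < s := hs0
    simp only [mul_zero, add_zero, sub_zero, Complex.real_smul] at hs
    rwa [Real.norm_eq_abs, abs_of_pos hs0] at hs
  have hc : Continuous fun s : ℝ => cis (β₀ + σ * s) := continuous_cis.comp (by fun_prop)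
  have h5 : ∀ᶠ s : ℝ in 𝓝[>] 0, cis α₀ ≠ cis (β₀ + σ * s) ∧ cis α₀ + cis (β₀ + σ * s) ≠ 0 := by
    have e1 : ∀ᶠ s : ℝ in 𝓝 0, cis (β₀ + σ * s) ≠ cis α₀ := by
      refine (hc.tendsto 0).eventually (isOpen_ne.mem_nhds ?_)
      simpa using h1.symm
    have e2 : ∀ᶠ s : ℝ in 𝓝 0, cis (β₀ + σ * s) ≠ -cis α₀ := by
      refine (hc.tendsto 0).eventually (isOpen_ne.mem_nhds ?_)
      simp only [mul_zero, add_zero]
      exact fun h6 => h2 (by rw [h6]; ring)
    filter_upwards [(e1.and e2).filter_mono nhdsWithin_le_nhds] with s hs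
    exact ⟨hs.1.symm, fun h6 => hs.2 (by linear_combination h6)⟩
  have h6 : ∀ᶠ s : ℝ in 𝓝[>] 0, s < ε := nhdsWithin_le_nhds (Iio_mem_nhds hε)
  have h7 : ∀ᶠ s : ℝ in 𝓝[>] 0, 0 < s := self_mem_nhdsWithin
  obtain ⟨b, hbQ, ⟨hb1, hb2, hb3⟩, hb4, hb0⟩ :=
    (hQ.and_eventually ((h4.and h5).and (h6.and h7))).exists
  -- the first point
  have h8 : ∀ᶠ α in 𝓝 α₀, cis α ≠ cis (β₀ + σ * b) ∧ cis α + cis (β₀ + σ * b) ≠ 0 := by
    have e1 := (continuous_cis.tendsto α₀).eventually (isOpen_ne.mem_nhds hb2)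
    have e2 := (continuous_cis.tendsto α₀).eventually (isOpen_ne.mem_nhds
      (show cis α₀ ≠ -cis (β₀ + σ * b) from fun h9 => hb3 (by rw [h9]; ring)))
    filter_upwards [e1, e2] with α h9 h10
    exact ⟨h9, fun h11 => h10 (by linear_combination h11)⟩
  have h9 : ∀ᶠ α in 𝓝 α₀, |α - α₀| < ε / 2 * b := by
    have := Metric.ball_mem_nhds α₀ (show 0 < ε / 2 * b by positivity)
    filter_upwards [this] with α hα
    rwa [mem_ball, Real.dist_eq] at hα
  obtain ⟨α, hα, ⟨hα1, hα2⟩, hα3⟩ := (hP.and_eventually (h8.and h9)).exists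
  have h10 := h3 b hb0 hb4 ((cis α - cis α₀) + (cis (β₀ + σ * b) - cis β₀)) (by
    have e : (cis α - cis α₀) + (cis (β₀ + σ * b) - cis β₀) - b * ((σ : ℂ) * (Complex.I * cis β₀)) =
        (cis α - cis α₀) + (cis (β₀ + σ * b) - cis β₀ - b * ((σ : ℂ) * (Complex.I * cis β₀))) := by
      ring
    rw [e]
    refine lt_of_le_of_lt (norm_add_le _ _) ?_
    have := norm_cis_sub158 α α₀
    nlinarith)
  refine h10 ?_
  have e : z + cis α₀ + cis β₀ + ((cis α - cis α₀) + (cis (β₀ + σ * b) - cis β₀)) =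
      z + cis α + cis (β₀ + σ * b) := by ring
  rw [e]
  exact pair_free h hα hbQ hα1 hα2

/-- **Rhombus wedge**, the palette -/
theorem wedge_tau (h : Irr U T) {z : ℂ} {α₀ β₀ σ : ℝ} {P Q : Set (Fin k)} (h1 : cis α₀ ≠ cis β₀)
    (h2 : cis α₀ + cis β₀ ≠ 0) (hσ : σ = 1 ∨ σ = -1)
    (hP : ∃ᶠ α in 𝓝 α₀, z + cis α ∈ Cr U z P)
    (hQ : ∃ᶠ s in 𝓝[>] (0 : ℝ), z + cis (β₀ + σ * s) ∈ Cr U z Q) :
    ∃ i ∈ tau T (z + cis α₀ + cis β₀) (σ * (Complex.I * cis β₀)), i ∉ P ∧ i ∉ Q ∧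
      ∀ v, dist (z + cis α₀ + cis β₀) v = 1 →
        (0 < ip (σ * (Complex.I * cis β₀)) (z + cis α₀ + cis β₀ - v) →
          OutN U v (z + cis α₀ + cis β₀) i) ∧
        (ip (σ * (Complex.I * cis β₀)) (z + cis α₀ + cis β₀ - v) < 0 →
          InnN U v (z + cis α₀ + cis β₀) i) := by
  obtain ⟨w, hw1, hw2⟩ := ((wedge_gen h.mx h1 h2 hσ hP hQ).and_eventually
    (tau_ev T _ _)).exists
  obtain ⟨i, hi⟩ := h.ne w
  exact ⟨i, hw2 hi, fun hj => hw1 i (Or.inl hj) (h.sub _ hi),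
    fun hj => hw1 i (Or.inr hj) (h.sub _ hi), fun v hv =>
    ⟨outN_of_tau h (hw2 hi) hv, innN_of_tau h (hw2 hi) hv⟩⟩

/-! ### the slots -/

theorem cis_add158 (s t : ℝ) : cis (s + t) = cis s * cis t := by
  unfold cis
  rw [← Complex.exp_add]
  congr 1
  push_cast
  ring

theorem cis_third : cis (Real.pi / 3) = 1 / 2 + (√3 / 2 : ℝ) * Complex.I := by
  apply Complex.ext
  · rw [cis_re, Real.cos_pi_div_three]; simp
  · rw [cis_im, Real.sin_pi_div_three]; simp

theorem cis_third' : cis (-(Real.pi / 3)) = 1 / 2 - (√3 / 2 : ℝ) * Complex.I := by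
  apply Complex.ext
  · rw [cis_re, Real.cos_neg, Real.cos_pi_div_three]; simp
  · rw [cis_im, Real.sin_neg, Real.sin_pi_div_three]; simp

/-- the rhombus of the two neighbours -/
theorem cis_nb (t : ℝ) : cis (t + Real.pi / 3) + cis (t - Real.pi / 3) = cis t := by
  rw [sub_eq_add_neg t, cis_add158, cis_add158, cis_third, cis_third']
  ring

theorem freq_right {z : ℂ} {u : ℝ} {p : ℂ → Prop} (h : ∃ᶠ v in 𝓝[>] u, p (pt z v)) :
    ∃ᶠ s in 𝓝[>] (0 : ℝ), p (z + cis (u * (Real.pi / 3) + 1 * s)) := by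
  have hp : 0 < Real.pi / 3 := by positivity
  have h1 : Tendsto (fun v : ℝ => (v - u) * (Real.pi / 3)) (𝓝[>] u) (𝓝[>] 0) := by
    refine tendsto_nhdsWithin_iff.2 ⟨?_, ?_⟩
    · have h2 : Continuous fun v : ℝ => (v - u) * (Real.pi / 3) := by fun_prop
      have h3 := h2.tendsto u
      rw [sub_self, zero_mul] at h3
      exact h3.mono_left nhdsWithin_le_nhds
    · filter_upwards [self_mem_nhdsWithin] with v hv
      exact mul_pos (sub_pos.2 hv) hp
  refine h1.frequently (h.mono fun v hv => ?_)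
  have e : z + cis (u * (Real.pi / 3) + 1 * ((v - u) * (Real.pi / 3))) = pt z v := by
    unfold pt; congr 2; ring
  rw [e]
  exact hv

theorem freq_left {z : ℂ} {u : ℝ} {p : ℂ → Prop} (h : ∃ᶠ v in 𝓝[<] u, p (pt z v)) :
    ∃ᶠ s in 𝓝[>] (0 : ℝ), p (z + cis (u * (Real.pi / 3) + -1 * s)) := by
  have hp : 0 < Real.pi / 3 := by positivity
  have h1 : Tendsto (fun v : ℝ => (u - v) * (Real.pi / 3)) (𝓝[<] u) (𝓝[>] 0) := by
    refine tendsto_nhdsWithin_iff.2 ⟨?_, ?_⟩
    · have h2 : Continuous fun v : ℝ => (u - v) * (Real.pi / 3) := by fun_prop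
      have h3 := h2.tendsto u
      rw [sub_self, zero_mul] at h3
      exact h3.mono_left nhdsWithin_le_nhds
    · filter_upwards [self_mem_nhdsWithin] with v hv
      exact mul_pos (sub_pos.2 hv) hp
  refine h1.frequently (h.mono fun v hv => ?_)
  have e : z + cis (u * (Real.pi / 3) + -1 * ((u - v) * (Real.pi / 3))) = pt z v := by
    unfold pt; congr 2; ring
  rw [e]
  exact hv

theorem freq_nhds {z : ℂ} {u : ℝ} {p : ℂ → Prop} (h : ∃ᶠ v in 𝓝 u, p (pt z v)) :
    ∃ᶠ s in 𝓝 (u * (Real.pi / 3)), p (z + cis s) := by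
  have h1 : Tendsto (fun v : ℝ => v * (Real.pi / 3)) (𝓝 u) (𝓝 (u * (Real.pi / 3))) := by
    have h2 : Continuous fun v : ℝ => v * (Real.pi / 3) := by fun_prop
    exact h2.tendsto u
  exact h1.frequently h

theorem cis_ne_nb (t : ℝ) : cis (t + Real.pi / 3) ≠ cis (t - Real.pi / 3) := by
  rw [sub_eq_add_neg t, cis_add158, cis_add158, cis_third, cis_third']
  intro h
  have h1 : cis t ≠ 0 := fun h2 => by
    have := norm_cis t
    rw [h2, norm_zero] at this
    exact zero_ne_one this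
  have h2 := mul_left_cancel₀ h1 h
  have h3 := congrArg Complex.im h2
  simp at h3
  have h4 : (0 : ℝ) < √3 := by positivity
  linarith

/-- the slot `u` of `S(z)` as the rhombus point of its neighbours -/
theorem pt_nb (z : ℂ) (u : ℝ) :
    z + cis ((u + 1) * (Real.pi / 3)) + cis ((u - 1) * (Real.pi / 3)) = pt z u := by
  have h1 := cis_nb (u * (Real.pi / 3))
  unfold pt
  rw [← h1, show (u + 1) * (Real.pi / 3) = u * (Real.pi / 3) + Real.pi / 3 by ring,
    show (u - 1) * (Real.pi / 3) = u * (Real.pi / 3) - Real.pi / 3 by ring]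
  ring

theorem pt_nb' (z : ℂ) (u : ℝ) :
    z + cis ((u - 1) * (Real.pi / 3)) + cis ((u + 1) * (Real.pi / 3)) = pt z u := by
  rw [← pt_nb z u]; ring

theorem nb_side (u : ℝ) :
    cis ((u + 1) * (Real.pi / 3)) ≠ cis ((u - 1) * (Real.pi / 3)) ∧
      cis ((u + 1) * (Real.pi / 3)) + cis ((u - 1) * (Real.pi / 3)) ≠ 0 := by
  have h1 := cis_nb (u * (Real.pi / 3))
  have h2 := cis_ne_nb (u * (Real.pi / 3))
  rw [show (u + 1) * (Real.pi / 3) = u * (Real.pi / 3) + Real.pi / 3 by ring,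
    show (u - 1) * (Real.pi / 3) = u * (Real.pi / 3) - Real.pi / 3 by ring]
  refine ⟨h2, ?_⟩
  rw [h1]
  intro h3
  have := norm_cis (u * (Real.pi / 3))
  rw [h3, norm_zero] at this
  exact zero_ne_one this

/-- the direction of the branch of `S(y-)` at `y` -/
theorem ip_nb (u σ τ : ℝ) :
    ip ((σ : ℂ) * (Complex.I * cis ((u + τ) * (Real.pi / 3)))) (cis (u * (Real.pi / 3))) =
      -(σ * Real.sin (τ * (Real.pi / 3))) := by
  unfold ip
  simp only [Complex.mul_re, Complex.mul_im, Complex.ofReal_re, Complex.ofReal_im, Complex.I_re,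
    Complex.I_im, cis_re, cis_im]
  have h1 : Real.sin (τ * (Real.pi / 3)) = Real.sin ((u + τ) * (Real.pi / 3)) *
      Real.cos (u * (Real.pi / 3)) - Real.cos ((u + τ) * (Real.pi / 3)) *
      Real.sin (u * (Real.pi / 3)) := by
    rw [← Real.sin_sub]; congr 1; ring
  rw [h1]
  ring

theorem pt_sub158 (z : ℂ) (u : ℝ) : pt z u - z = cis (u * (Real.pi / 3)) := by
  unfold pt; ring

theorem dist_pt158 (z : ℂ) (u : ℝ) : dist (pt z u) z = 1 := by
  rw [dist_eq_norm, pt_sub158, norm_cis]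

/-- **(XC), outside**: `Q` is carried after the slot `u - 1`, `P` near the slot `u + 1`. -/
theorem xc_out_after (h : Irr U T) {z : ℂ} {u : ℝ} {P Q : Set (Fin k)}
    (hP : ∃ᶠ v in 𝓝 (u + 1), pt z v ∈ Cr U z P) (hQ : ∃ᶠ v in 𝓝[>] (u - 1), pt z v ∈ Cr U z Q) :
    ∃ i ∈ T (pt z u), i ∉ P ∧ i ∉ Q ∧ OutN U z (pt z u) i := by
  obtain ⟨h1, h2⟩ := nb_side u
  obtain ⟨i, hi, h3, h4, h5⟩ := wedge_tau h h1 h2 (Or.inl rfl) (freq_nhds hP) (freq_right hQ)
  rw [pt_nb] at hi h5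
  refine ⟨i, h.tau_sub _ _ hi, h3, h4, (h5 z (dist_pt158 z u)).1 ?_⟩
  rw [pt_sub158, show u - 1 = u + -1 by ring, ip_nb, neg_one_mul, Real.sin_neg,
    Real.sin_pi_div_three]
  have : 0 < √3 := by positivity
  linarith

/-- **(XC), outside**: `P` is carried before the slot `u + 1`, `Q` near the slot `u - 1`. -/
theorem xc_out_before (h : Irr U T) {z : ℂ} {u : ℝ} {P Q : Set (Fin k)}
    (hP : ∃ᶠ v in 𝓝[<] (u + 1), pt z v ∈ Cr U z P) (hQ : ∃ᶠ v in 𝓝 (u - 1), pt z v ∈ Cr U z Q) :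
    ∃ i ∈ T (pt z u), i ∉ P ∧ i ∉ Q ∧ OutN U z (pt z u) i := by
  obtain ⟨h1, h2⟩ := nb_side u
  obtain ⟨i, hi, h3, h4, h5⟩ := wedge_tau h h1.symm (by rw [add_comm]; exact h2) (Or.inr rfl)
    (freq_nhds hQ) (freq_left hP)
  rw [pt_nb'] at hi h5
  refine ⟨i, h.tau_sub _ _ hi, h4, h3, (h5 z (dist_pt158 z u)).1 ?_⟩
  rw [pt_sub158, ip_nb, one_mul, Real.sin_pi_div_three]
  have : 0 < √3 := by positivity
  linarith

/-- **(XC), inside**: `P` is carried after the slot `u + 1`, `Q` near the slot `u - 1`. -/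
theorem xc_inn_after (h : Irr U T) {z : ℂ} {u : ℝ} {P Q : Set (Fin k)}
    (hP : ∃ᶠ v in 𝓝[>] (u + 1), pt z v ∈ Cr U z P) (hQ : ∃ᶠ v in 𝓝 (u - 1), pt z v ∈ Cr U z Q) :
    ∃ i ∈ T (pt z u), i ∉ P ∧ i ∉ Q ∧ InnN U z (pt z u) i := by
  obtain ⟨h1, h2⟩ := nb_side u
  obtain ⟨i, hi, h3, h4, h5⟩ := wedge_tau h h1.symm (by rw [add_comm]; exact h2) (Or.inl rfl)
    (freq_nhds hQ) (freq_right hP)
  rw [pt_nb'] at hi h5
  refine ⟨i, h.tau_sub _ _ hi, h4, h3, (h5 z (dist_pt158 z u)).2 ?_⟩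
  rw [pt_sub158, ip_nb, one_mul, one_mul, Real.sin_pi_div_three]
  have : 0 < √3 := by positivity
  linarith

/-- **(XC), inside**: `Q` is carried before the slot `u - 1`, `P` near the slot `u + 1`. -/
theorem xc_inn_before (h : Irr U T) {z : ℂ} {u : ℝ} {P Q : Set (Fin k)}
    (hP : ∃ᶠ v in 𝓝 (u + 1), pt z v ∈ Cr U z P) (hQ : ∃ᶠ v in 𝓝[<] (u - 1), pt z v ∈ Cr U z Q) :
    ∃ i ∈ T (pt z u), i ∉ P ∧ i ∉ Q ∧ InnN U z (pt z u) i := by
  obtain ⟨h1, h2⟩ := nb_side u
  obtain ⟨i, hi, h3, h4, h5⟩ := wedge_tau h h1 h2 (Or.inr rfl) (freq_nhds hP) (freq_left hQ)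
  rw [pt_nb] at hi h5
  refine ⟨i, h.tau_sub _ _ hi, h3, h4, (h5 z (dist_pt158 z u)).2 ?_⟩
  rw [pt_sub158, show u - 1 = u + -1 by ring, ip_nb, neg_one_mul, neg_one_mul, Real.sin_neg,
    Real.sin_pi_div_three]
  have : 0 < √3 := by positivity
  linarith

/-- **(XC)** with types, outside: not all the colours of `T y` off `P`, `Q` have a ray at `z` towards
`y` (`P` before `u + 1` or `Q` after `u - 1`) -/
theorem xc_out_type (h : Irr U T) {z : ℂ} {u : ℝ} {P Q : Set (Fin k)}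
    (hPQ : ((∃ᶠ v in 𝓝[<] (u + 1), pt z v ∈ Cr U z P) ∧ ∃ᶠ v in 𝓝 (u - 1), pt z v ∈ Cr U z Q) ∨
      ((∃ᶠ v in 𝓝 (u + 1), pt z v ∈ Cr U z P) ∧ ∃ᶠ v in 𝓝[>] (u - 1), pt z v ∈ Cr U z Q))
    (hT : ∀ i ∈ T (pt z u), i ∉ P → i ∉ Q → ∃ m, Ray (U i) z m ∧ 0 < ip m (pt z u - z)) :
    False := by
  have h1 : ∃ i ∈ T (pt z u), i ∉ P ∧ i ∉ Q ∧ OutN U z (pt z u) i := by
    rcases hPQ with ⟨h1, h2⟩ | ⟨h1, h2⟩
    · exact xc_out_before h h1 h2
    · exact xc_out_after h h1 h2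
  obtain ⟨i, hi, h2, h3, h4⟩ := h1
  obtain ⟨m, h5, h6⟩ := hT i hi h2 h3
  exact absurd h6 (not_lt.2 (h4.ray h.mx (dist_pt158 z u) h5))

/-- **(XC)** with types, inside: not all the colours of `T y` off `P`, `Q` have a ray at `z` away
from `y` (`P` after `u + 1` or `Q` before `u - 1`) -/
theorem xc_inn_type (h : Irr U T) {z : ℂ} {u : ℝ} {P Q : Set (Fin k)}
    (hPQ : ((∃ᶠ v in 𝓝[>] (u + 1), pt z v ∈ Cr U z P) ∧ ∃ᶠ v in 𝓝 (u - 1), pt z v ∈ Cr U z Q) ∨
      ((∃ᶠ v in 𝓝 (u + 1), pt z v ∈ Cr U z P) ∧ ∃ᶠ v in 𝓝[<] (u - 1), pt z v ∈ Cr U z Q))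
    (hT : ∀ i ∈ T (pt z u), i ∉ P → i ∉ Q → ∃ m, Ray (U i) z m ∧ ip m (pt z u - z) < 0) :
    False := by
  have h1 : ∃ i ∈ T (pt z u), i ∉ P ∧ i ∉ Q ∧ InnN U z (pt z u) i := by
    rcases hPQ with ⟨h1, h2⟩ | ⟨h1, h2⟩
    · exact xc_inn_after h h1 h2
    · exact xc_inn_before h h1 h2
  obtain ⟨i, hi, h2, h3, h4⟩ := h1
  obtain ⟨m, h5, h6⟩ := hT i hi h2 h3
  exact absurd h6 (not_lt.2 (h4.ray h.mx (dist_pt158 z u) h5))

end Vale.Agent.P032.H158
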