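import Vale.Agent.P032.H429.Line
import Vale.Agent.P032.H158.XC

/-!
# P032: the XC relation between the limit states of a centre with windows

`Dr U z i` : the solid directions of the colour `i` at `z` (units of 60 degrees).
`outc`, `innc` : the closed window (at the time `u` itself) is in the closed half plane behind / in
front of the slot.  `xc_rel` : for a limit state `s` from the left and a limit state `s'` from the
right at the time `u`, every slot has a colour off its two neighbours whose closed window is behind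
(in front), for the mixed readings `(old, old)`, `(old, new)`, `(new, new)` (resp. `(new, new)`,
`(new, old)`, `(old, old)`) of the two neighbours.
-/

open Set Filter Topology Metric

noncomputable section

namespace Vale.Agent.P032.H158

open Vale.Agent.P032.Six Vale.Agent.P032.Sweep Vale.Agent.P032.S5.H767 Vale.Agent.P032.S5.H122
  Vale.Agent.P032.H429 Vale.Agent.P032.H187

/-- the solid directions of a colour (units of 60 degrees) -/
def Dr (U : Fin 6 → Set ℂ) (z : ℂ) (i : Fin 6) : Set ℝ :=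
  {s | Ray (U i) z (cis (s * (Real.pi / 3)))}

/-- the number of sectors of the closed window at the time `u`; `0` for a point on a ray -/
def clen (w w' : ZMod 6 × ℕ) : ℕ := if w'.1 = w.1 then w'.2 + 1 else w'.2

/-- the closed window is in the closed half plane behind the slot `j` -/
def outc (w w' : ZMod 6 × ℕ) (j : ZMod 6) : Prop := (w.1 - j).val + clen w w' ≤ 3

instance (w w' : ZMod 6 × ℕ) (j : ZMod 6) : Decidable (outc w w' j) := by
  unfold outc; infer_instance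

/-- the closed window is in the closed half plane in front of the slot `j` -/
def innc (w w' : ZMod 6 × ℕ) (j : ZMod 6) : Prop := outc w w' (j + 3)

instance (w w' : ZMod 6 × ℕ) (j : ZMod 6) : Decidable (innc w w' j) := by
  unfold innc; infer_instance

theorem scr_cases (u x : ℝ) : scr u x = sc u x ∨ scr u x = sc u x - 1 := by
  by_cases h : ∃ n : ℤ, x = u + 3 / 2 + n
  · obtain ⟨n, hn⟩ := h
    exact Or.inr (scr_mark hn).1
  · push Not at h
    exact Or.inl (scr_eq h)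

theorem scr_mono (u : ℝ) {x y : ℝ} (h : x ≤ y) : scr u x ≤ scr u y := by
  unfold scr
  have := Int.ceil_le_ceil (show x - u - 3 / 2 ≤ y - u - 3 / 2 by linarith)
  omega

theorem scr_lt {u x : ℝ} {j : ℤ} : scr u x < j ↔ x ≤ u + 3 / 2 + j := by
  unfold scr
  rw [Int.sub_one_lt_iff, Int.ceil_le]
  constructor <;> intro h <;> linarith

theorem scr_int (t x : ℝ) (n : ℤ) : scr t (x + 6 * n) = scr t x + 6 * n := by
  unfold scr
  have e : x + 6 * n - t - 3 / 2 = x - t - 3 / 2 + ((6 * n : ℤ) : ℝ) := by push_cast; ring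
  rw [e, Int.ceil_add_intCast]
  ring

theorem cast_ne_sub_one (a : ℤ) : ((a - 1 : ℤ) : ZMod 6) ≠ (a : ZMod 6) := by
  push_cast
  generalize (a : ZMod 6) = b
  revert b
  decide

/-- the number of sectors of the closed window -/
theorem clen_eq {L R : Fin 6 → ℝ} {i : Fin 6} (hLR : L i ≤ R i) (u : ℝ) :
    (clen (wn L R u i) (wr L R u i) : ℤ) = scr u (R i) - sc u (L i) + 1 := by
  have h1 := scr_mono u hLR
  have hw : (wr L R u i).2 = (scr u (R i) - scr u (L i)).toNat := rfl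
  unfold clen
  rcases scr_cases u (L i) with h2 | h2
  · have h3 : (wr L R u i).1 = (wn L R u i).1 := by
      show ((scr u (L i) : ℤ) : ZMod 6) = ((sc u (L i) : ℤ) : ZMod 6)
      rw [h2]
    rw [if_pos h3, hw]
    push_cast
    rw [Int.toNat_of_nonneg (by omega), h2]
  · have h3 : ¬ (wr L R u i).1 = (wn L R u i).1 := by
      show ((scr u (L i) : ℤ) : ZMod 6) ≠ ((sc u (L i) : ℤ) : ZMod 6)
      rw [h2]
      exact cast_ne_sub_one _
    rw [if_neg h3, hw, Int.toNat_of_nonneg (by omega), h2]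
    ring

/-- the meaning of `outc` -/
theorem outc_iff {L R : Fin 6 → ℝ} {i : Fin 6} (hLR : L i ≤ R i) (u : ℝ) (j : ℤ) :
    outc (wn L R u i) (wr L R u i) (j : ZMod 6) ↔
      ∃ n : ℤ, u + j + 3 / 2 ≤ L i + 6 * n ∧ R i + 6 * n ≤ u + j + 9 / 2 := by
  have hc := clen_eq (i := i) hLR u
  have h0 : (0 : ℤ) ≤ scr u (R i) - sc u (L i) + 1 := by rw [← hc]; positivity
  have e0 : ∀ n : ℤ, ((sc u (L i) : ZMod 6) - (j : ZMod 6)) =
      (((sc u (L i) + 6 * n - j : ℤ)) : ZMod 6) := by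
    intro n
    push_cast
    have : (6 : ZMod 6) = 0 := by decide
    rw [this]
    ring
  have key : ∀ n : ℤ, (u + j + 3 / 2 ≤ L i + 6 * n ∧ R i + 6 * n ≤ u + j + 9 / 2) ↔
      (0 ≤ sc u (L i) + 6 * n - j ∧ scr u (R i) + 6 * n < j + 3) := by
    intro n
    have h1 : (0 ≤ sc u (L i) + 6 * n - j) ↔ (u + j + 3 / 2 ≤ L i + 6 * n) := by
      rw [← sc_int]
      rw [sub_nonneg, le_sc]
      constructor <;> intro h <;> linarith
    have h2 : (scr u (R i) + 6 * n < j + 3) ↔ (R i + 6 * n ≤ u + j + 9 / 2) := by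
      rw [← scr_int, scr_lt]
      push_cast
      constructor <;> intro h <;> linarith
    rw [h1, h2]
  constructor
  · intro h
    unfold outc at h
    simp only [wn] at h
    obtain ⟨m, hm0, hm6⟩ : ∃ m : ℤ, 0 ≤ sc u (L i) - j + 6 * m ∧ sc u (L i) - j + 6 * m < 6 := by
      refine ⟨-((sc u (L i) - j) / 6), ?_, ?_⟩
      · have := Int.emod_nonneg (sc u (L i) - j) (show (6 : ℤ) ≠ 0 by norm_num)
        have h2 := Int.emod_add_mul_ediv (sc u (L i) - j) 6
        linarith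
      · have := Int.emod_lt_of_pos (sc u (L i) - j) (show (0 : ℤ) < 6 by norm_num)
        have h2 := Int.emod_add_mul_ediv (sc u (L i) - j) 6
        linarith
    refine ⟨m, (key m).2 ⟨by linarith, ?_⟩⟩
    rw [e0 m, zval_of_int _ (by linarith) (by linarith)] at h
    have h' : ((sc u (L i) + 6 * m - j).toNat : ℤ) + (clen (wn L R u i) (wr L R u i) : ℤ) ≤ 3 := by
      exact_mod_cast h
    rw [Int.toNat_of_nonneg (by linarith), hc] at h'
    linarith
  · rintro ⟨n, hn⟩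
    obtain ⟨h1, h2⟩ := (key n).1 hn
    unfold outc
    have h3 : sc u (L i) + 6 * n - j < 6 := by linarith
    have e1 : (wn L R u i).1 - (j : ZMod 6) = (((sc u (L i) + 6 * n - j : ℤ)) : ZMod 6) := e0 n
    rw [e1, zval_of_int _ h1 h3]
    have h' : ((sc u (L i) + 6 * n - j).toNat : ℤ) + (clen (wn L R u i) (wr L R u i) : ℤ) ≤ 3 := by
      rw [Int.toNat_of_nonneg h1, hc]
      linarith
    exact_mod_cast h'

theorem innc_iff {L R : Fin 6 → ℝ} {i : Fin 6} (hLR : L i ≤ R i) (u : ℝ) (j : ℤ) :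
    innc (wn L R u i) (wr L R u i) (j : ZMod 6) ↔
      ∃ n : ℤ, u + j - 3 / 2 ≤ L i + 6 * n ∧ R i + 6 * n ≤ u + j + 3 / 2 := by
  unfold innc
  have h1 := outc_iff (i := i) hLR u (j + 3)
  push_cast at h1
  rw [h1]
  constructor
  · rintro ⟨n, h2, h3⟩
    exact ⟨n - 1, by push_cast; linarith, by push_cast; linarith⟩
  · rintro ⟨n, h2, h3⟩
    exact ⟨n + 1, by push_cast; linarith, by push_cast; linarith⟩

/-! ### solid directions and sides -/

theorem cos_le_iff (x : ℝ) : Real.cos (x * (Real.pi / 3)) ≤ 0 ↔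
    ∃ n : ℤ, 3 / 2 ≤ x + 6 * n ∧ x + 6 * n ≤ 9 / 2 := by
  have hp := Real.pi_pos
  have key : ∀ n : ℤ, Real.cos (x * (Real.pi / 3)) = Real.cos ((x + 6 * n) * (Real.pi / 3)) := by
    intro n
    have e : (x + 6 * n) * (Real.pi / 3) = x * (Real.pi / 3) + n * (2 * Real.pi) := by ring
    rw [e, Real.cos_add_int_mul_two_pi]
  constructor
  · intro h
    obtain ⟨m, hm0, hm6⟩ : ∃ m : ℤ, -3 / 2 ≤ x + 6 * m ∧ x + 6 * m < 9 / 2 := by
      refine ⟨-⌊(x + 3 / 2) / 6⌋, ?_, ?_⟩
      · have := Int.floor_le ((x + 3 / 2) / 6)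
        push_cast
        linarith
      · have := Int.lt_floor_add_one ((x + 3 / 2) / 6)
        push_cast
        linarith
    rw [key m] at h
    by_cases hc : 3 / 2 ≤ x + 6 * m
    · exact ⟨m, hc, hm6.le⟩
    · push Not at hc
      rcases hm0.eq_or_lt with h1 | h1
      · exact ⟨m + 1, by push_cast; linarith, by push_cast; linarith⟩
      · exfalso
        refine absurd (Real.cos_pos_of_mem_Ioo ⟨?_, ?_⟩) (not_lt.2 h)
        · nlinarith
        · nlinarith
  · rintro ⟨n, h1, h2⟩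
    rw [key n]
    refine Real.cos_nonpos_of_pi_div_two_le_of_le ?_ ?_
    · nlinarith
    · nlinarith

/-- an interval shorter than a half turn with both ends behind is behind -/
theorem behind {l r t : ℝ} (hr : r < l + 3)
    (hl1 : Real.cos ((l - t) * (Real.pi / 3)) ≤ 0) (hr1 : Real.cos ((r - t) * (Real.pi / 3)) ≤ 0) :
    ∃ n : ℤ, t + 3 / 2 ≤ l + 6 * n ∧ r + 6 * n ≤ t + 9 / 2 := by
  obtain ⟨n, h1, h2⟩ := (cos_le_iff _).1 hl1
  obtain ⟨m, h3, h4⟩ := (cos_le_iff _).1 hr1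
  refine ⟨n, by linarith, ?_⟩
  by_contra hcon
  push Not at hcon
  have h5 : (m : ℝ) < n := by linarith
  have h6 : (n : ℝ) - 1 < m := by linarith
  have h7 : m < n := by exact_mod_cast h5
  have h8 : n - 1 < m := by exact_mod_cast h6
  omega

theorem ip_dir (s t : ℝ) : ip (cis (s * (Real.pi / 3))) (cis (t * (Real.pi / 3))) =
    Real.cos ((s - t) * (Real.pi / 3)) := by
  rw [ip_cis429]
  congr 1
  ring

section

variable {U : Fin 6 → Set ℂ} {T : ℂ → Set (Fin 6)} {z : ℂ} {L R : Fin 6 → ℝ}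

theorem out_dir (h : Mx U) {t x : ℝ} {i : Fin 6} (ho : OutN U z (pt z t) i)
    (hx : x ∈ closure (Dr U z i)) : Real.cos ((x - t) * (Real.pi / 3)) ≤ 0 := by
  have hcl : IsClosed {x : ℝ | Real.cos ((x - t) * (Real.pi / 3)) ≤ 0} :=
    isClosed_le (by fun_prop) continuous_const
  refine hcl.closure_subset_iff.2 (fun s hs => ?_) hx
  have h1 := ho.ray h (dist_pt158 z t) hs
  rw [pt_sub158, ip_dir] at h1
  exact h1

theorem inn_dir (h : Mx U) {t x : ℝ} {i : Fin 6} (ho : InnN U z (pt z t) i)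
    (hx : x ∈ closure (Dr U z i)) : 0 ≤ Real.cos ((x - t) * (Real.pi / 3)) := by
  have hcl : IsClosed {x : ℝ | 0 ≤ Real.cos ((x - t) * (Real.pi / 3))} :=
    isClosed_le continuous_const (by fun_prop)
  refine hcl.closure_subset_iff.2 (fun s hs => ?_) hx
  have h1 := ho.ray h (dist_pt158 z t) hs
  rw [pt_sub158, ip_dir] at h1
  exact h1

/-- a colour outside near the slot is behind it -/
theorem outc_of (h : Mx U) (w : WinData T z L R) {u : ℝ} {j i : Fin 6}
    (hL : L i ∈ closure (Dr U z i)) (hR : R i ∈ closure (Dr U z i))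
    (ho : OutN U z (pt z (u + (j.val : ℝ))) i) :
    outc (wn L R u i) (wr L R u i) (j.val : ZMod 6) := by
  obtain ⟨n, h1, h2⟩ := behind (w.lt i) (out_dir h ho hL) (out_dir h ho hR)
  have h3 := (outc_iff (i := i) (w.le i) u (j.val : ℤ)).2 ⟨n, by push_cast; linarith,
    by push_cast; linarith⟩
  simpa using h3

/-- a colour inside near the slot is in front of it -/
theorem innc_of (h : Mx U) (w : WinData T z L R) {u : ℝ} {j i : Fin 6}
    (hL : L i ∈ closure (Dr U z i)) (hR : R i ∈ closure (Dr U z i))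
    (ho : InnN U z (pt z (u + (j.val : ℝ))) i) :
    innc (wn L R u i) (wr L R u i) (j.val : ZMod 6) := by
  have e : ∀ x t : ℝ, 0 ≤ Real.cos ((x - t) * (Real.pi / 3)) →
      Real.cos ((x - (t + 3)) * (Real.pi / 3)) ≤ 0 := by
    intro x t hx
    have e1 : (x - (t + 3)) * (Real.pi / 3) = (x - t) * (Real.pi / 3) - Real.pi := by ring
    rw [e1, Real.cos_sub_pi]
    linarith
  obtain ⟨n, h1, h2⟩ := behind (w.lt i) (e _ _ (inn_dir h ho hL))
    (e _ _ (inn_dir h ho hR))
  have h3 := (innc_iff (i := i) (w.le i) u (j.val : ℤ)).2 ⟨n - 1, by push_cast; linarith,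
    by push_cast; linarith⟩
  simpa using h3

/-! ### letters of the limit states -/

/-- the colours of an oriented letter -/
def cset (p : Fin 6 × Fin 6) : Set (Fin 6) := {p.1, p.2}

theorem pt_slot (z : ℂ) (v : ℝ) (j : Fin 6) :
    pt z (v + ((j + 1 : Fin 6).val : ℝ)) = pt z (v + (j.val : ℝ) + 1) ∧
      pt z (v + ((j - 1 : Fin 6).val : ℝ)) = pt z (v + (j.val : ℝ) - 1) := by
  have h6 : ∀ s : ℝ, pt z (s + 6) = pt z s := pt_six z
  constructor
  · by_cases hj : j.val < 5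
    · have e : (j + 1 : Fin 6).val = j.val + 1 := by
        revert hj; revert j; decide
      rw [e]; push_cast; congr 1; ring
    · have e : (j + 1 : Fin 6).val = 0 := by revert hj; revert j; decide
      have e' : j.val = 5 := by omega
      rw [e, e', ← h6 (v + ((0 : ℕ) : ℝ))]
      congr 1; push_cast; ring
  · by_cases hj : 0 < j.val
    · have e : (j - 1 : Fin 6).val = j.val - 1 := by revert hj; revert j; decide
      rw [e]
      have e2 : ((j.val - 1 : ℕ) : ℝ) = (j.val : ℝ) - 1 := by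
        rw [Nat.cast_sub (by omega)]; push_cast; ring
      rw [e2]; congr 1; ring
    · have e : (j - 1 : Fin 6).val = 5 := by revert hj; revert j; decide
      have e' : j.val = 0 := by omega
      rw [e, e', ← h6 (v + ((0 : ℕ) : ℝ) - 1)]
      congr 1; push_cast; ring

/-- a letter of a generic state is carried by the circle -/
theorem carried (h : Irr U T) (w : WinData T z L R) {v : ℝ} (hv : v ∈ WinData.G T z L R)
    (j : Fin 6) : pt z (v + (j.val : ℝ)) ∈ Cr U z (cset ((WinData.st T z L R v).1 j)) := by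
  obtain ⟨h1, h2, -, -, -⟩ := w.col_spec hv.1 j
  refine Cr_of_T h (dist_pt158 z _) ((Lc_circle (hv.1 j)).mono fun q hq => ?_)
  have e : cset ((WinData.st T z L R v).1 j) ⊆ T (pt z (v + (j.val : ℝ))) := by
    rintro x (rfl | hx)
    · exact h1
    · rw [mem_singleton_iff] at hx
      rw [hx]
      exact h2
  rw [hq]
  exact e

theorem freq_add {l : ℝ → Filter ℝ} (hl : l = (fun u => 𝓝[<] u) ∨ l = (fun u => 𝓝[>] u))
    {u c : ℝ} {p : ℝ → Prop} (hp : ∃ᶠ v in l u, p (v + c)) : ∃ᶠ v in l (u + c), p v := by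
  have hc : Tendsto (fun v : ℝ => v + c) (𝓝 u) (𝓝 (u + c)) := by
    have : Continuous fun v : ℝ => v + c := by fun_prop
    exact this.tendsto u
  rcases hl with rfl | rfl
  · have h1 : Tendsto (fun v : ℝ => v + c) (𝓝[<] u) (𝓝[<] (u + c)) := by
      refine tendsto_nhdsWithin_iff.2 ⟨hc.mono_left nhdsWithin_le_nhds, ?_⟩
      filter_upwards [self_mem_nhdsWithin] with v hv
      exact add_lt_add_left hv c
    exact h1.frequently hp
  · have h1 : Tendsto (fun v : ℝ => v + c) (𝓝[>] u) (𝓝[>] (u + c)) := by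
      refine tendsto_nhdsWithin_iff.2 ⟨hc.mono_left nhdsWithin_le_nhds, ?_⟩
      filter_upwards [self_mem_nhdsWithin] with v hv
      exact add_lt_add_left hv c
    exact h1.frequently hp

/-- the next slot of a limit state is carried near its time -/
theorem LS_next (h : Irr U T) (w : WinData T z L R) {u : ℝ} {s : St} (hs : s ∈ LS T z L R u)
    (j : Fin 6) : (∃ᶠ v in 𝓝[<] (u + (j.val : ℝ) + 1), pt z v ∈ Cr U z (cset (s.1 (j + 1)))) ∧
      ∃ᶠ v in 𝓝[<] (u + (j.val : ℝ) - 1), pt z v ∈ Cr U z (cset (s.1 (j - 1))) := by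
  have hs' : ∃ᶠ v in 𝓝[<] u, v ∈ WinData.G T z L R ∧ WinData.st T z L R v = s := hs
  constructor
  · have e : u + (j.val : ℝ) + 1 = u + ((j.val : ℝ) + 1) := by ring
    rw [e]
    refine freq_add (l := fun u => 𝓝[<] u) (Or.inl rfl) (hs'.mono fun v hv => ?_)
    have h1 := carried h w hv.1 (j + 1)
    rw [(pt_slot z v j).1, hv.2] at h1
    rwa [← add_assoc]
  · have e : u + (j.val : ℝ) - 1 = u + ((j.val : ℝ) - 1) := by ring
    rw [e]
    refine freq_add (l := fun u => 𝓝[<] u) (Or.inl rfl) (hs'.mono fun v hv => ?_)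
    have h1 := carried h w hv.1 (j - 1)
    rw [(pt_slot z v j).2, hv.2] at h1
    rwa [← add_sub_assoc]

theorem RS_next (h : Irr U T) (w : WinData T z L R) {u : ℝ} {s : St} (hs : s ∈ RS T z L R u)
    (j : Fin 6) : (∃ᶠ v in 𝓝[>] (u + (j.val : ℝ) + 1), pt z v ∈ Cr U z (cset (s.1 (j + 1)))) ∧
      ∃ᶠ v in 𝓝[>] (u + (j.val : ℝ) - 1), pt z v ∈ Cr U z (cset (s.1 (j - 1))) := by
  have hs' : ∃ᶠ v in 𝓝[>] u, v ∈ WinData.G T z L R ∧ WinData.st T z L R v = s := hs
  constructor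
  · have e : u + (j.val : ℝ) + 1 = u + ((j.val : ℝ) + 1) := by ring
    rw [e]
    refine freq_add (l := fun u => 𝓝[>] u) (Or.inr rfl) (hs'.mono fun v hv => ?_)
    have h1 := carried h w hv.1 (j + 1)
    rw [(pt_slot z v j).1, hv.2] at h1
    rwa [← add_assoc]
  · have e : u + (j.val : ℝ) - 1 = u + ((j.val : ℝ) - 1) := by ring
    rw [e]
    refine freq_add (l := fun u => 𝓝[>] u) (Or.inr rfl) (hs'.mono fun v hv => ?_)
    have h1 := carried h w hv.1 (j - 1)
    rw [(pt_slot z v j).2, hv.2] at h1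
    rwa [← add_sub_assoc]

theorem nhds_of_left {u : ℝ} {p : ℝ → Prop} (h : ∃ᶠ v in 𝓝[<] u, p v) : ∃ᶠ v in 𝓝 u, p v :=
  h.filter_mono nhdsWithin_le_nhds

theorem nhds_of_right {u : ℝ} {p : ℝ → Prop} (h : ∃ᶠ v in 𝓝[>] u, p v) : ∃ᶠ v in 𝓝 u, p v :=
  h.filter_mono nhdsWithin_le_nhds

/-- the colour is off both letters -/
def offl (p q : Fin 6 × Fin 6) (i : Fin 6) : Prop := i ≠ p.1 ∧ i ≠ p.2 ∧ i ≠ q.1 ∧ i ≠ q.2

instance (p q : Fin 6 × Fin 6) (i : Fin 6) : Decidable (offl p q i) := by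
  unfold offl; infer_instance

theorem offl_of {p q : Fin 6 × Fin 6} {i : Fin 6} (h1 : i ∉ cset p) (h2 : i ∉ cset q) :
    offl p q i := by
  unfold cset at h1 h2
  simp only [mem_insert_iff, mem_singleton_iff, not_or] at h1 h2
  exact ⟨h1.1, h1.2, h2.1, h2.2⟩

/-- **XC at a slot, outside**, germ form: the two neighbours of the slot are read off the limit
states, not (next one after, previous one before) -/
theorem xc_out_st (h : Irr U T) (w : WinData T z L R) {u : ℝ} {s s' : St} (hs : s ∈ LS T z L R u)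
    (hs' : s' ∈ RS T z L R u) (j : Fin 6) {p q : Fin 6 × Fin 6}
    (hpq : (p = s.1 (j + 1) ∧ q = s.1 (j - 1)) ∨ (p = s.1 (j + 1) ∧ q = s'.1 (j - 1)) ∨
      (p = s'.1 (j + 1) ∧ q = s'.1 (j - 1))) :
    ∃ i ∈ T (pt z (u + (j.val : ℝ))), offl p q i ∧ OutN U z (pt z (u + (j.val : ℝ))) i := by
  obtain ⟨a1, a2⟩ := LS_next h w hs j
  obtain ⟨b1, b2⟩ := RS_next h w hs' j
  have key : ∃ i ∈ T (pt z (u + (j.val : ℝ))), i ∉ cset p ∧ i ∉ cset q ∧
      OutN U z (pt z (u + (j.val : ℝ))) i := by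
    rcases hpq with ⟨rfl, rfl⟩ | ⟨rfl, rfl⟩ | ⟨rfl, rfl⟩
    · exact xc_out_before h a1 (nhds_of_left a2)
    · exact xc_out_before h a1 (nhds_of_right b2)
    · exact xc_out_after h (nhds_of_right b1) b2
  obtain ⟨i, hi, h1, h2, h3⟩ := key
  exact ⟨i, hi, offl_of h1 h2, h3⟩

/-- **XC at a slot, inside**, germ form: not (next one before, previous one after) -/
theorem xc_inn_st (h : Irr U T) (w : WinData T z L R) {u : ℝ} {s s' : St} (hs : s ∈ LS T z L R u)
    (hs' : s' ∈ RS T z L R u) (j : Fin 6) {p q : Fin 6 × Fin 6}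
    (hpq : (p = s.1 (j + 1) ∧ q = s.1 (j - 1)) ∨ (p = s'.1 (j + 1) ∧ q = s.1 (j - 1)) ∨
      (p = s'.1 (j + 1) ∧ q = s'.1 (j - 1))) :
    ∃ i ∈ T (pt z (u + (j.val : ℝ))), offl p q i ∧ InnN U z (pt z (u + (j.val : ℝ))) i := by
  obtain ⟨a1, a2⟩ := LS_next h w hs j
  obtain ⟨b1, b2⟩ := RS_next h w hs' j
  have key : ∃ i ∈ T (pt z (u + (j.val : ℝ))), i ∉ cset p ∧ i ∉ cset q ∧
      InnN U z (pt z (u + (j.val : ℝ))) i := by
    rcases hpq with ⟨rfl, rfl⟩ | ⟨rfl, rfl⟩ | ⟨rfl, rfl⟩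
    · exact xc_inn_before h (nhds_of_left a1) a2
    · exact xc_inn_after h b1 (nhds_of_left a2)
    · exact xc_inn_after h b1 (nhds_of_right b2)
  obtain ⟨i, hi, h1, h2, h3⟩ := key
  exact ⟨i, hi, offl_of h1 h2, h3⟩

end

/-- the **XC relation** between a state before and a state after; `Sd` : the solid colours -/
def XCRel (Sd : Fin 6 → Prop) (s s' : St) : Prop :=
  ∀ j : Fin 6,
    ((∃ i, offl (s.1 (j + 1)) (s.1 (j - 1)) i ∧ (Sd i → outc (s.2 i) (s'.2 i) (j.val : ZMod 6))) ∧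
      (∃ i, offl (s.1 (j + 1)) (s'.1 (j - 1)) i ∧
        (Sd i → outc (s.2 i) (s'.2 i) (j.val : ZMod 6))) ∧
      ∃ i, offl (s'.1 (j + 1)) (s'.1 (j - 1)) i ∧
        (Sd i → outc (s.2 i) (s'.2 i) (j.val : ZMod 6))) ∧
    ((∃ i, offl (s.1 (j + 1)) (s.1 (j - 1)) i ∧ (Sd i → innc (s.2 i) (s'.2 i) (j.val : ZMod 6))) ∧
      (∃ i, offl (s'.1 (j + 1)) (s.1 (j - 1)) i ∧
        (Sd i → innc (s.2 i) (s'.2 i) (j.val : ZMod 6))) ∧
      ∃ i, offl (s'.1 (j + 1)) (s'.1 (j - 1)) i ∧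
        (Sd i → innc (s.2 i) (s'.2 i) (j.val : ZMod 6)))

instance (Sd : Fin 6 → Prop) [DecidablePred Sd] (s s' : St) : Decidable (XCRel Sd s s') := by
  unfold XCRel; infer_instance

section

variable {U : Fin 6 → Set ℂ} {T : ℂ → Set (Fin 6)} {z : ℂ} {L R : Fin 6 → ℝ}

/-- **The XC relation.** -/
theorem xc_rel (h : Irr U T) (w : WinData T z L R) {Sd : Fin 6 → Prop}
    (hD : ∀ i, Sd i → L i ∈ closure (Dr U z i) ∧ R i ∈ closure (Dr U z i)) {u : ℝ} {s s' : St}
    (hs : s ∈ LS T z L R u) (hs' : s' ∈ RS T z L R u) : XCRel Sd s s' := by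
  have e1 := WinData.LS_win hs
  have e2 := WinData.RS_win hs'
  have ho : ∀ (j : Fin 6) {p q : Fin 6 × Fin 6},
      (∃ i ∈ T (pt z (u + (j.val : ℝ))), offl p q i ∧ OutN U z (pt z (u + (j.val : ℝ))) i) →
      ∃ i, offl p q i ∧ (Sd i → outc (s.2 i) (s'.2 i) (j.val : ZMod 6)) := by
    rintro j p q ⟨i, -, h1, h2⟩
    refine ⟨i, h1, fun hi => ?_⟩
    rw [e1, e2]
    exact outc_of h.mx w (hD i hi).1 (hD i hi).2 h2
  have hi : ∀ (j : Fin 6) {p q : Fin 6 × Fin 6},
      (∃ i ∈ T (pt z (u + (j.val : ℝ))), offl p q i ∧ InnN U z (pt z (u + (j.val : ℝ))) i) →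
      ∃ i, offl p q i ∧ (Sd i → innc (s.2 i) (s'.2 i) (j.val : ZMod 6)) := by
    rintro j p q ⟨i, -, h1, h2⟩
    refine ⟨i, h1, fun hi => ?_⟩
    rw [e1, e2]
    exact innc_of h.mx w (hD i hi).1 (hD i hi).2 h2
  intro j
  exact ⟨⟨ho j (xc_out_st h w hs hs' j (Or.inl ⟨rfl, rfl⟩)),
      ho j (xc_out_st h w hs hs' j (Or.inr (Or.inl ⟨rfl, rfl⟩))),
      ho j (xc_out_st h w hs hs' j (Or.inr (Or.inr ⟨rfl, rfl⟩)))⟩,
    ⟨hi j (xc_inn_st h w hs hs' j (Or.inl ⟨rfl, rfl⟩)),
      hi j (xc_inn_st h w hs hs' j (Or.inr (Or.inl ⟨rfl, rfl⟩))),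
      hi j (xc_inn_st h w hs hs' j (Or.inr (Or.inr ⟨rfl, rfl⟩)))⟩⟩

end

/-! ### validity of the limit states, window steps -/

/-- a state with oriented letters and the 60 rule -/
def OkSt (s : St) : Prop :=
  (∀ i, (s.2 i).2 ≤ 3) ∧ ∀ j : Fin 6, (s.1 j).1 ≠ (s.1 j).2 ∧
    inn (s.2 (s.1 j).1) (j.val : ZMod 6) ∧ out (s.2 (s.1 j).2) (j.val : ZMod 6) ∧
    (s.1 j).1 ≠ (s.1 (j + 1)).1 ∧ (s.1 j).1 ≠ (s.1 (j + 1)).2 ∧
    (s.1 j).2 ≠ (s.1 (j + 1)).1 ∧ (s.1 j).2 ≠ (s.1 (j + 1)).2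

instance (s : St) : Decidable (OkSt s) := by unfold OkSt; infer_instance

/-- one step of a window: every end drops by `0` or `1` -/
def WStep (w w' : ZMod 6 × ℕ) : Prop :=
  (w' = w) ∨ (w' = (w.1 - 1, w.2 + 1)) ∨ (w' = (w.1 - 1, w.2)) ∨ (1 ≤ w.2 ∧ w' = (w.1, w.2 - 1))

instance (w w' : ZMod 6 × ℕ) : Decidable (WStep w w') := by unfold WStep; infer_instance

section

variable {U : Fin 6 → Set ℂ} {T : ℂ → Set (Fin 6)} {z : ℂ} {L R : Fin 6 → ℝ}

/-- generic states are valid -/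
theorem ok_st (h : Irr U T) (w : WinData T z L R) {v : ℝ} (hv : v ∈ WinData.G T z L R) :
    OkSt (WinData.st T z L R v) := by
  refine ⟨fun i => w.len v i, fun j => ?_⟩
  obtain ⟨h1, h1', h2, h3, h4⟩ := w.col_spec hv.1 j
  obtain ⟨h5, h5', -, -, -⟩ := w.col_spec hv.1 (j + 1)
  have hd := dj_sixty h (hv.1 j)
  rw [← (pt_slot z v j).1] at hd
  have hd' := Set.disjoint_left.1 hd
  have n1 := hd' h1
  have n2 := hd' h1'
  exact ⟨h2, h3, h4, fun e => n1 (e ▸ h5), fun e => n1 (e ▸ h5'), fun e => n2 (e ▸ h5),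
    fun e => n2 (e ▸ h5')⟩

theorem LS_ok (h : Irr U T) (w : WinData T z L R) {u : ℝ} {s : St} (hs : s ∈ LS T z L R u) :
    OkSt s := by
  have hs' : ∃ᶠ v in 𝓝[<] u, v ∈ WinData.G T z L R ∧ WinData.st T z L R v = s := hs
  obtain ⟨v, hv, rfl⟩ := hs'.exists
  exact ok_st h w hv

theorem RS_ok (h : Irr U T) (w : WinData T z L R) {u : ℝ} {s : St} (hs : s ∈ RS T z L R u) :
    OkSt s := by
  have hs' : ∃ᶠ v in 𝓝[>] u, v ∈ WinData.G T z L R ∧ WinData.st T z L R v = s := hs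
  obtain ⟨v, hv, rfl⟩ := hs'.exists
  exact ok_st h w hv

theorem win_step {i : Fin 6} (hLR : L i ≤ R i) (u : ℝ) : WStep (wn L R u i) (wr L R u i) := by
  have h1 := scr_mono u hLR
  have h0 : sc u (L i) ≤ sc u (R i) := Int.floor_le_floor (by linarith)
  have hw : wn L R u i = ((sc u (L i) : ZMod 6), (sc u (R i) - sc u (L i)).toNat) := rfl
  have hw' : wr L R u i = ((scr u (L i) : ZMod 6), (scr u (R i) - scr u (L i)).toNat) := rfl
  rw [hw, hw']
  unfold WStep
  simp only [Prod.mk.injEq]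
  rcases scr_cases u (L i) with h2 | h2 <;> rcases scr_cases u (R i) with h3 | h3
  · left
    rw [h2, h3]
    exact ⟨rfl, rfl⟩
  · right; right; right
    rw [h2, h3]
    refine ⟨?_, rfl, ?_⟩ <;> omega
  · right; left
    rw [h2, h3]
    refine ⟨by push_cast; rfl, ?_⟩
    omega
  · right; right; left
    rw [h2, h3]
    refine ⟨by push_cast; rfl, ?_⟩
    omega

/-- no window moves iff no window end is on a ray -/
theorem win_same_iff {u : ℝ} (hLR : ∀ i, L i ≤ R i) :
    (wr L R u = wn L R u) ↔ u ∉ WinData.M L R := by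
  constructor
  · rintro he ⟨i, n, hn | hn⟩
    · obtain ⟨h1, -⟩ := scr_mark hn
      have h2 := congrFun he i
      have h3 : ((scr u (L i) : ℤ) : ZMod 6) = ((sc u (L i) : ℤ) : ZMod 6) := congrArg Prod.fst h2
      rw [h1] at h3
      exact cast_ne_sub_one _ h3
    · obtain ⟨h1, -⟩ := scr_mark hn
      have h2 := congrFun he i
      have h3 : ((scr u (L i) : ℤ) : ZMod 6) = ((sc u (L i) : ℤ) : ZMod 6) := congrArg Prod.fst h2
      have h4 : (scr u (R i) - scr u (L i)).toNat = (sc u (R i) - sc u (L i)).toNat :=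
        congrArg Prod.snd h2
      have h5 := scr_mono u (hLR i)
      have h6 : sc u (L i) ≤ sc u (R i) := Int.floor_le_floor (by linarith [hLR i])
      rcases scr_cases u (L i) with h7 | h7
      · rw [h7, h1] at h4
        rw [h1, h7] at h5
        omega
      · rw [h7] at h3
        exact cast_ne_sub_one _ h3
  · intro hu
    funext i
    have h1 : scr u (L i) = sc u (L i) := scr_eq fun n hn => hu ⟨i, n, Or.inl hn⟩
    have h2 : scr u (R i) = sc u (R i) := scr_eq fun n hn => hu ⟨i, n, Or.inr hn⟩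
    unfold wr wn
    simp only [h1, h2]

/-- **All the rules at a time** of a centre with windows -/
structure Step (Sd : Fin 6 → Prop) (s s' : St) : Prop where
  ok : OkSt s
  ok' : OkSt s'
  win : ∀ i, WStep (s.2 i) (s'.2 i)
  xc : XCRel Sd s s'

theorem step_all (h : Irr U T) (w : WinData T z L R) {Sd : Fin 6 → Prop}
    (hD : ∀ i, Sd i → L i ∈ closure (Dr U z i) ∧ R i ∈ closure (Dr U z i)) {u : ℝ} {s s' : St}
    (hs : s ∈ LS T z L R u) (hs' : s' ∈ RS T z L R u) :
    Step Sd s s' ∧ ((s'.2 = s.2) ↔ u ∉ WinData.M L R) := by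
  have e1 := WinData.LS_win hs
  have e2 := WinData.RS_win hs'
  refine ⟨⟨LS_ok h w hs, RS_ok h w hs', fun i => ?_, xc_rel h w hD hs hs'⟩, ?_⟩
  · rw [e1, e2]
    exact win_step (w.le i) u
  · rw [e1, e2]
    exact win_same_iff w.le

/-- **The potential theorem** with the rules of this file: a potential which is invariant under the
turn, never rises at a step and falls when a window moves. -/
theorem false_of_pot (h : Irr U T) (w : WinData T z L R) {Sd : Fin 6 → Prop}
    (hD : ∀ i, Sd i → L i ∈ closure (Dr U z i) ∧ R i ∈ closure (Dr U z i)) {φ : St → ℕ}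
    (hsh : ∀ s, OkSt s → φ (H429.shift s) = φ s)
    (step : ∀ s s', Step Sd s s' → φ s' ≤ φ s ∧ (s'.2 ≠ s.2 → φ s' < φ s)) : False := by
  refine WinData.false_pot h z L R (φ := φ) (fun t ht => hsh _ (ok_st h w ht))
    fun u s hs s' hs' => ?_
  obtain ⟨h1, h2⟩ := step_all h w hD hs hs'
  obtain ⟨h3, h4⟩ := step s s' h1
  refine ⟨h3, fun hu => h4 fun he => ?_⟩
  exact (h2.1 he) hu

end

end Vale.Agent.P032.H158
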