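import Vale.Agent.P032.H158.Rel

/-!
# P032: the partner rule for window ends, in terms of the limit states

`PE U z i e` : the colour `i` is in the palette of one of the two points of `S(z)` perpendicular to
the direction `e` (partner rule for a window end `e` of `i`).  `left_end`, `right_end` : if the left
(right) end of the window of `i` moves at the time `u`, then `i` occurs near the slot perpendicular
to this end or near the opposite slot.
-/

open Set Filter Topology Metric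

noncomputable section

namespace Vale.Agent.P032.H158

open Vale.Agent.P032.Six Vale.Agent.P032.Sweep Vale.Agent.P032.S5.H767 Vale.Agent.P032.S5.H122
  Vale.Agent.P032.H429 Vale.Agent.P032.H187

/-- the partner rule at the direction `e` (units of 60 degrees) -/
def PE (U : Fin 6 → Set ℂ) (z : ℂ) (i : Fin 6) (e : ℝ) : Prop :=
  i ∈ Pal U (pt z (e + 3 / 2)) ∨ i ∈ Pal U (pt z (e - 3 / 2))

/-- the colour occurs near the slot `j` at the time `u` off the circle -/
def NearS (U : Fin 6 → Set ℂ) (z : ℂ) (u : ℝ) (i : Fin 6) (j : Fin 6) : Prop :=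
  OutN U z (pt z (u + (j.val : ℝ))) i ∨ InnN U z (pt z (u + (j.val : ℝ))) i

section

variable {U : Fin 6 → Set ℂ} {T : ℂ → Set (Fin 6)} {z : ℂ} {L R : Fin 6 → ℝ}

theorem pt_int (z : ℂ) (t : ℝ) (n : ℤ) : pt z (t + 6 * n) = pt z t := by
  have h6 : ∀ s : ℝ, pt z (s + 6) = pt z s := pt_six z
  induction n using Int.induction_on with
  | zero => simp
  | succ m ih =>
    have e : t + 6 * (((m : ℤ) + 1 : ℤ) : ℝ) = (t + 6 * ((m : ℤ) : ℝ)) + 6 := by push_cast; ring
    rw [e, h6, ih]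
  | pred m ih =>
    have e : t + 6 * (((-(m : ℤ)) : ℤ) : ℝ) = (t + 6 * (((-(m : ℤ) - 1 : ℤ)) : ℝ)) + 6 := by
      push_cast; ring
    rw [← ih, e, h6]

/-- slots with the same number mod six -/
theorem pt_mod (z : ℂ) (u : ℝ) {n : ℤ} {j : Fin 6} (hj : (j.val : ZMod 6) = (n : ZMod 6)) :
    pt z (u + n) = pt z (u + (j.val : ℝ)) := by
  have h1 : (((j.val : ℤ) - n : ℤ) : ZMod 6) = 0 := by push_cast; rw [hj, sub_self]
  have h2 : (6 : ℤ) ∣ ((j.val : ℤ) - n) := by
    have := (ZMod.intCast_zmod_eq_zero_iff_dvd ((j.val : ℤ) - n) 6).1 h1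
    exact_mod_cast this
  obtain ⟨m, hm⟩ := h2
  have h3 : u + (j.val : ℝ) = u + n + 6 * m := by
    have : ((j.val : ℤ) : ℝ) - n = 6 * m := by exact_mod_cast hm
    push_cast at this
    linarith
  rw [h3, pt_int]

/-- the colour at a mark -/
theorem near_mark (h : Mx U) {i : Fin 6} {e u : ℝ} {n : ℤ} {j : Fin 6} (hP : PE U z i e)
    (he : e = u + 3 / 2 + n) (hj : (j.val : ZMod 6) = (n : ZMod 6)) :
    NearS U z u i j ∨ NearS U z u i (j + 3) := by
  rcases hP with h1 | h1
  · right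
    have e1 : e + 3 / 2 = u + ((n + 3 : ℤ) : ℝ) := by rw [he]; push_cast; ring
    have hj3 : (((j + 3 : Fin 6).val : ℕ) : ZMod 6) = ((n + 3 : ℤ) : ZMod 6) := by
      have h3 : ∀ j : Fin 6, (((j + 3 : Fin 6).val : ℕ) : ZMod 6) = (j.val : ZMod 6) + 3 := by
        decide
      rw [h3 j, hj]
      push_cast
      rfl
    rw [e1, pt_mod z u hj3] at h1
    exact out_or_inn h h1
  · left
    have e1 : e - 3 / 2 = u + (n : ℝ) := by rw [he]; ring
    rw [e1, pt_mod z u hj] at h1
    exact out_or_inn h h1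

/-- the left end is on a ray when it moves -/
theorem left_mark (_w : WinData T z L R) {u : ℝ} {s s' : St} (hs : s ∈ LS T z L R u)
    (hs' : s' ∈ RS T z L R u) {i : Fin 6} (hm : (s'.2 i).1 ≠ (s.2 i).1) :
    ∃ n : ℤ, L i = u + 3 / 2 + n ∧ ((s.2 i).1 = (n : ZMod 6)) := by
  rw [WinData.LS_win hs, WinData.RS_win hs'] at hm
  rw [WinData.LS_win hs]
  have hm' : ((scr u (L i) : ℤ) : ZMod 6) ≠ ((sc u (L i) : ℤ) : ZMod 6) := hm
  by_cases hx : ∃ n : ℤ, L i = u + 3 / 2 + n
  · obtain ⟨n, hn⟩ := hx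
    refine ⟨n, hn, ?_⟩
    show ((sc u (L i) : ℤ) : ZMod 6) = _
    have : sc u (L i) = n := by
      unfold sc
      rw [hn]
      have e : u + 3 / 2 + (n : ℝ) - u - 3 / 2 = (n : ℝ) := by ring
      rw [e, Int.floor_intCast]
    rw [this]
  · push Not at hx
    exact absurd (by rw [scr_eq hx]) hm'

/-- the right end is on a ray when it moves -/
theorem right_mark (w : WinData T z L R) {u : ℝ} {s s' : St} (hs : s ∈ LS T z L R u)
    (hs' : s' ∈ RS T z L R u) {i : Fin 6}
    (hm : (s'.2 i).1 + ((s'.2 i).2 : ZMod 6) ≠ (s.2 i).1 + ((s.2 i).2 : ZMod 6)) :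
    ∃ n : ℤ, R i = u + 3 / 2 + n ∧ ((s.2 i).1 + ((s.2 i).2 : ZMod 6) = (n : ZMod 6)) := by
  rw [WinData.LS_win hs, WinData.RS_win hs'] at hm
  rw [WinData.LS_win hs]
  have h0 : sc u (L i) ≤ sc u (R i) := Int.floor_le_floor (by linarith [w.le i])
  have h1 := scr_mono u (w.le i)
  have e1 : (wn L R u i).1 + ((wn L R u i).2 : ZMod 6) = ((sc u (R i) : ℤ) : ZMod 6) := by
    show ((sc u (L i) : ℤ) : ZMod 6) + (((sc u (R i) - sc u (L i)).toNat : ℕ) : ZMod 6) = _
    have : (((sc u (R i) - sc u (L i)).toNat : ℕ) : ZMod 6) =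
        ((((sc u (R i) - sc u (L i)).toNat : ℕ) : ℤ) : ZMod 6) := by push_cast; rfl
    rw [this, Int.toNat_of_nonneg (by omega)]
    push_cast
    ring
  have e2 : (wr L R u i).1 + ((wr L R u i).2 : ZMod 6) = ((scr u (R i) : ℤ) : ZMod 6) := by
    show ((scr u (L i) : ℤ) : ZMod 6) + (((scr u (R i) - scr u (L i)).toNat : ℕ) : ZMod 6) = _
    have : (((scr u (R i) - scr u (L i)).toNat : ℕ) : ZMod 6) =
        ((((scr u (R i) - scr u (L i)).toNat : ℕ) : ℤ) : ZMod 6) := by push_cast; rfl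
    rw [this, Int.toNat_of_nonneg (by omega)]
    push_cast
    ring
  rw [e1, e2] at hm
  rw [e1]
  by_cases hx : ∃ n : ℤ, R i = u + 3 / 2 + n
  · obtain ⟨n, hn⟩ := hx
    refine ⟨n, hn, ?_⟩
    have : sc u (R i) = n := by
      unfold sc
      rw [hn]
      have e : u + 3 / 2 + (n : ℝ) - u - 3 / 2 = (n : ℝ) := by ring
      rw [e, Int.floor_intCast]
    rw [this]
  · push Not at hx
    exact absurd (by rw [scr_eq hx]) hm

/-- **the partner rule at a left end which moves** -/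
theorem left_end (h : Mx U) (w : WinData T z L R) {u : ℝ} {s s' : St} (hs : s ∈ LS T z L R u)
    (hs' : s' ∈ RS T z L R u) {i : Fin 6} (hP : PE U z i (L i)) (hm : (s'.2 i).1 ≠ (s.2 i).1)
    {j : Fin 6} (hj : (j.val : ZMod 6) = (s.2 i).1) :
    NearS U z u i j ∨ NearS U z u i (j + 3) := by
  obtain ⟨n, hn, hn'⟩ := left_mark w hs hs' hm
  exact near_mark h hP hn (hj.trans hn')

/-- **the partner rule at a right end which moves** -/
theorem right_end (h : Mx U) (w : WinData T z L R) {u : ℝ} {s s' : St} (hs : s ∈ LS T z L R u)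
    (hs' : s' ∈ RS T z L R u) {i : Fin 6} (hP : PE U z i (R i))
    (hm : (s'.2 i).1 + ((s'.2 i).2 : ZMod 6) ≠ (s.2 i).1 + ((s.2 i).2 : ZMod 6))
    {j : Fin 6} (hj : (j.val : ZMod 6) = (s.2 i).1 + ((s.2 i).2 : ZMod 6)) :
    NearS U z u i j ∨ NearS U z u i (j + 3) := by
  obtain ⟨n, hn, hn'⟩ := right_mark w hs hs' hm
  exact near_mark h hP hn (hj.trans hn')

end

end Vale.Agent.P032.H158
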