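import Vale.Agent.P032.H158.Cov

/-!
# P032: the windows at two times less than a sixth of a turn apart

Between `u-` and `u'+`, `u ≤ u' < u + 1`, every window end crosses at most one ray.
-/

open Set Filter Topology Metric

noncomputable section

namespace Vale.Agent.P032.H158

open Vale.Agent.P032.Six Vale.Agent.P032.Sweep Vale.Agent.P032.S5.H767 Vale.Agent.P032.S5.H122
  Vale.Agent.P032.H429 Vale.Agent.P032.H187

/-- sector numbers at `u-` and `u'+` -/
theorem scr_two {u u' : ℝ} (h0 : u ≤ u') (h1 : u' < u + 1) (x : ℝ) :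
    scr u' x = sc u x ∨ scr u' x = sc u x - 1 := by
  have a1 := (le_sc (t := u) (x := x) (j := sc u x)).1 le_rfl
  have a2 := (sc_lt (t := u) (x := x) (j := sc u x + 1)).1 (by omega)
  have b1 : scr u' x < sc u x + 1 := by
    rw [scr_lt]
    push_cast at a2 ⊢
    linarith
  have b2 : ¬ scr u' x < sc u x - 1 := by
    rw [scr_lt]
    push_cast
    intro h
    linarith
  omega

/-- sector numbers at `u-` and `u'-` -/
theorem sc_two {u u' : ℝ} (h0 : u ≤ u') (h1 : u' < u + 1) (x : ℝ) :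
    sc u' x = sc u x ∨ sc u' x = sc u x - 1 := by
  have a1 := (le_sc (t := u) (x := x) (j := sc u x)).1 le_rfl
  have a2 := (sc_lt (t := u) (x := x) (j := sc u x + 1)).1 (by omega)
  have b1 : sc u' x < sc u x + 1 := by
    rw [sc_lt]
    push_cast at a2 ⊢
    linarith
  have b2 : sc u x - 1 ≤ sc u' x := by
    rw [le_sc]
    push_cast
    linarith
  omega

/-- sector numbers at `u+` and `u'+` -/
theorem scr_scr {u u' : ℝ} (h0 : u ≤ u') (h1 : u' < u + 1) (x : ℝ) :
    scr u' x = scr u x ∨ scr u' x = scr u x - 1 := by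
  have a1 : ¬ scr u x < scr u x := lt_irrefl _
  rw [scr_lt] at a1
  have a2 : scr u x < scr u x + 1 := by omega
  rw [scr_lt] at a2
  push Not at a1
  have b1 : scr u' x < scr u x + 1 := by
    rw [scr_lt]
    push_cast at a2 ⊢
    linarith
  have b2 : ¬ scr u' x < scr u x - 1 := by
    rw [scr_lt]
    push_cast
    intro h
    linarith
  omega

/-- sector numbers at `u+` and `u'-`, `u < u'` -/
theorem sc_scr {u u' : ℝ} (h0 : u < u') (h1 : u' < u + 1) (x : ℝ) :
    sc u' x = scr u x ∨ sc u' x = scr u x - 1 := by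
  have a1 : ¬ scr u x < scr u x := lt_irrefl _
  rw [scr_lt] at a1
  have a2 : scr u x < scr u x + 1 := by omega
  rw [scr_lt] at a2
  push Not at a1
  have b1 : sc u' x < scr u x + 1 := by
    rw [sc_lt]
    push_cast at a2 ⊢
    linarith
  have b2 : scr u x - 1 ≤ sc u' x := by
    rw [le_sc]
    push_cast
    linarith
  omega

/-- a window step from the sector numbers -/
theorem wstep_of {a b a' b' : ℤ} (h : a ≤ b) (h' : a' ≤ b') (ha : a' = a ∨ a' = a - 1)
    (hb : b' = b ∨ b' = b - 1) :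
    WStep ((a : ZMod 6), (b - a).toNat) ((a' : ZMod 6), (b' - a').toNat) := by
  unfold WStep
  simp only [Prod.mk.injEq]
  rcases ha with rfl | rfl <;> rcases hb with rfl | rfl
  · left
    exact ⟨rfl, rfl⟩
  · right; right; right
    refine ⟨?_, rfl, ?_⟩ <;> omega
  · right; left
    refine ⟨by push_cast; rfl, ?_⟩
    omega
  · right; right; left
    refine ⟨by push_cast; rfl, ?_⟩
    omega

theorem sc_mono' (u : ℝ) {x y : ℝ} (h : x ≤ y) : sc u x ≤ sc u y :=
  Int.floor_le_floor (by linarith)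

section

variable {U : Fin 6 → Set ℂ} {T : ℂ → Set (Fin 6)} {z : ℂ} {L R : Fin 6 → ℝ} {u u' : ℝ}

/-- `u-` to `u'+` -/
theorem win_step2 {i : Fin 6} (hLR : L i ≤ R i) (h0 : u ≤ u') (h1 : u' < u + 1) :
    WStep (wn L R u i) (wr L R u' i) :=
  wstep_of (sc_mono' u hLR) (scr_mono u' hLR) (scr_two h0 h1 _) (scr_two h0 h1 _)

/-- `u-` to `u'-` -/
theorem win_stepL {i : Fin 6} (hLR : L i ≤ R i) (h0 : u ≤ u') (h1 : u' < u + 1) :
    WStep (wn L R u i) (wn L R u' i) :=
  wstep_of (sc_mono' u hLR) (sc_mono' u' hLR) (sc_two h0 h1 _) (sc_two h0 h1 _)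

/-- `u+` to `u'+` -/
theorem win_stepR {i : Fin 6} (hLR : L i ≤ R i) (h0 : u ≤ u') (h1 : u' < u + 1) :
    WStep (wr L R u i) (wr L R u' i) :=
  wstep_of (scr_mono u hLR) (scr_mono u' hLR) (scr_scr h0 h1 _) (scr_scr h0 h1 _)

/-- `u+` to `u'-` -/
theorem win_stepM {i : Fin 6} (hLR : L i ≤ R i) (h0 : u < u') (h1 : u' < u + 1) :
    WStep (wr L R u i) (wn L R u' i) :=
  wstep_of (scr_mono u hLR) (sc_mono' u' hLR) (sc_scr h0 h1 _) (sc_scr h0 h1 _)

/-- **The windows at two times** `u < u' < u + 1`: `s` before and `s'` after `u`, `t` before and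
`t'` after `u'`. -/
structure Win2 (s s' t t' : St) : Prop where
  a : ∀ i, WStep (s.2 i) (s'.2 i)
  b : ∀ i, WStep (s'.2 i) (t.2 i)
  c : ∀ i, WStep (t.2 i) (t'.2 i)
  ab : ∀ i, WStep (s.2 i) (t.2 i)
  bc : ∀ i, WStep (s'.2 i) (t'.2 i)
  abc : ∀ i, WStep (s.2 i) (t'.2 i)

theorem win2 (w : WinData T z L R) (h0 : u < u') (h1 : u' < u + 1) {s s' t t' : St}
    (hs : s ∈ LS T z L R u) (hs' : s' ∈ RS T z L R u) (ht : t ∈ LS T z L R u')
    (ht' : t' ∈ RS T z L R u') : Win2 s s' t t' := by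
  have e1 := WinData.LS_win hs
  have e2 := WinData.RS_win hs'
  have e3 := WinData.LS_win ht
  have e4 := WinData.RS_win ht'
  constructor <;> intro i
  · rw [e1, e2]; exact win_step (w.le i) u
  · rw [e2, e3]; exact win_stepM (w.le i) h0 h1
  · rw [e3, e4]; exact win_step (w.le i) u'
  · rw [e1, e3]; exact win_stepL (w.le i) h0.le h1
  · rw [e2, e4]; exact win_stepR (w.le i) h0.le h1
  · rw [e1, e4]; exact win_step2 (w.le i) h0.le h1

/-- the two steps at two times -/
theorem step2_all (h : Irr U T) (w : WinData T z L R) {Sd : Fin 6 → Prop}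
    (hD : ∀ i, Sd i → L i ∈ closure (Dr U z i) ∧ R i ∈ closure (Dr U z i)) (h0 : u < u')
    (h1 : u' < u + 1) {s s' t t' : St} (hs : s ∈ LS T z L R u) (hs' : s' ∈ RS T z L R u)
    (ht : t ∈ LS T z L R u') (ht' : t' ∈ RS T z L R u') :
    StepC Sd s s' ∧ StepC Sd t t' ∧ Win2 s s' t t' :=
  ⟨(stepC_all h w hD hs hs').1, (stepC_all h w hD ht ht').1, win2 w h0 h1 hs hs' ht ht'⟩

end

end Vale.Agent.P032.H158
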